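import Vale.Agent.P371m.Psd
import Vale.Agent.P371h11.Kernel

/-!
The trilinear remainder of the matrix Bellman computation has a sign for every positive
semidefinite `R`.
-/

open Real Set Filter Topology BigOperators Matrix MeasureTheory
open Vale.Agent.P371h11

namespace Vale.Agent.P371m

variable {ι : Type*} [Fintype ι]

/-- the function `J (x, c) = ∫₀¹ (1/2) u (1-u) sin (u x + (1-u) c) du`. -/
noncomputable def Jf (x c : ℝ) : ℝ := ∫ u in (0 : ℝ)..1, (1 / 2) * u * (1 - u) * sin (u * x + (1 - u) * c)

lemma Jf_mul (x c : ℝ) :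
    (x - c) ^ 2 * Jf x c = sin ((x + c) / 2) * (sinc ((x - c) / 2) - cos ((x - c) / 2)) := by
  by_cases hxc : x = c
  · subst hxc
    simp [sinc_zero]
  have hh : x - c ≠ 0 := sub_ne_zero.2 hxc
  set h := x - c with hdef
  have hA : ∀ u ∈ Set.uIcc (0 : ℝ) 1,
      HasDerivAt (fun u : ℝ => (1 / 2) * (-(u * (1 - u) * h * cos (u * x + (1 - u) * c))
        + (1 - 2 * u) * sin (u * x + (1 - u) * c) - (2 / h) * cos (u * x + (1 - u) * c)))
        (h ^ 2 * ((1 / 2) * u * (1 - u) * sin (u * x + (1 - u) * c))) u := by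
    intro u _
    have hw : HasDerivAt (fun u : ℝ => u * x + (1 - u) * c) h u := by
      have h1 : HasDerivAt (fun u : ℝ => u * x) x u := by simpa using (hasDerivAt_id u).mul_const x
      have h2 : HasDerivAt (fun u : ℝ => (1 - u) * c) (-c) u := by
        simpa using ((hasDerivAt_id u).const_sub 1).mul_const c
      have := h1.fun_add h2
      simpa [hdef, sub_eq_add_neg] using this
    have hc := hw.cos
    have hs := hw.sin
    have hp : HasDerivAt (fun u : ℝ => u * (1 - u) * h) ((1 - 2 * u) * h) u := by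
      have h1 : HasDerivAt (fun u : ℝ => u * (1 - u)) (1 * (1 - u) + u * (-1)) u :=
        (hasDerivAt_id u).mul ((hasDerivAt_id u).const_sub 1)
      have := h1.mul_const h
      refine this.congr_deriv ?_
      ring
    have hl : HasDerivAt (fun u : ℝ => 1 - 2 * u) (-2) u := by
      simpa using ((hasDerivAt_id u).const_mul 2).const_sub 1
    have t1 := (hp.mul hc).neg
    have t2 := hl.mul hs
    have t3 := hc.const_mul (2 / h)
    have t := ((t1.add t2).sub t3).const_mul (1 / 2)
    refine t.congr_deriv ?_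
    field_simp
    ring
  have hint : (x - c) ^ 2 * Jf x c = ∫ u in (0 : ℝ)..1,
      h ^ 2 * ((1 / 2) * u * (1 - u) * sin (u * x + (1 - u) * c)) := by
    rw [intervalIntegral.integral_const_mul]
    rfl
  rw [hint, intervalIntegral.integral_eq_sub_of_hasDerivAt hA (by
    apply Continuous.intervalIntegrable
    fun_prop)]
  have em : x = (x + c) / 2 + h / 2 := by rw [hdef]; ring
  have ec : c = (x + c) / 2 - h / 2 := by rw [hdef]; ring
  have e1 : (h / 2) ≠ 0 := by
    simpa using hh
  rw [sinc_of_ne_zero (by rw [hdef]; exact e1)]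
  simp only [one_mul, zero_mul, zero_add, sub_zero, mul_zero, add_zero, sub_self, one_mul]
  have ex : cos x = cos ((x + c) / 2) * cos (h / 2) - sin ((x + c) / 2) * sin (h / 2) := by
    conv_lhs => rw [em]
    rw [cos_add]
  have ec' : cos c = cos ((x + c) / 2) * cos (h / 2) + sin ((x + c) / 2) * sin (h / 2) := by
    conv_lhs => rw [ec]
    rw [cos_sub]
  have sx : sin x = sin ((x + c) / 2) * cos (h / 2) + cos ((x + c) / 2) * sin (h / 2) := by
    conv_lhs => rw [em]
    rw [sin_add]
  have sc : sin c = sin ((x + c) / 2) * cos (h / 2) - cos ((x + c) / 2) * sin (h / 2) := by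
    conv_lhs => rw [ec]
    rw [sin_sub]
  simp only [ex, ec', sx, sc]
  field_simp
  ring

lemma Jf_symm (x c : ℝ) : Jf x c = Jf c x := by
  by_cases hxc : x = c
  · rw [hxc]
  have hh : (x - c) ^ 2 ≠ 0 := pow_ne_zero _ (sub_ne_zero.2 hxc)
  have h1 := Jf_mul x c
  have h2 := Jf_mul c x
  have e1 : (c - x) ^ 2 = (x - c) ^ 2 := by ring
  have e2 : (c + x) / 2 = (x + c) / 2 := by ring
  have e3 : (c - x) / 2 = -((x - c) / 2) := by ring
  rw [e1, e2, e3, sinc_neg, cos_neg, ← h1] at h2
  exact (mul_left_cancel₀ hh h2).symm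

/-- The kernel `(J (x, c) + J (z, c)) / sin ((x + z) / 2)` is positive semidefinite. -/
lemma psd_J [DecidableEq ι] (φ : ι → ℝ) (hφ : ∀ i, 0 < φ i ∧ φ i < π) {c : ℝ} (hc0 : 0 ≤ c)
    (hc1 : c ≤ π) :
    (Matrix.of fun i j => (Jf (φ i) c + Jf (φ j) c) / sin ((φ i + φ j) / 2)).PosSemidef := by
  refine psd_of_quad _ (fun i j => by rw [add_comm (Jf (φ i) c), add_comm (φ i)]) fun ξ => ?_
  set G : ℝ → ι → ℝ := fun u i => (1 / 2) * u * (1 - u) * sin (u * φ i + (1 - u) * c) with hG
  have hGc : ∀ i, Continuous fun u => G u i := by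
    intro i
    simp only [hG]
    fun_prop
  have hJ : ∀ i, Jf (φ i) c = ∫ u in (0 : ℝ)..1, G u i := fun i => rfl
  have e : ∑ i, ∑ j, ξ i * ξ j * ((Jf (φ i) c + Jf (φ j) c) / sin ((φ i + φ j) / 2))
      = ∫ u in (0 : ℝ)..1, ∑ i, ∑ j, ξ i * ξ j * ((G u i + G u j) / sin ((φ i + φ j) / 2)) := by
    rw [intervalIntegral.integral_finsetSum]
    · refine Finset.sum_congr rfl fun i _ => ?_
      rw [intervalIntegral.integral_finsetSum]
      · refine Finset.sum_congr rfl fun j _ => ?_
        rw [intervalIntegral.integral_const_mul, intervalIntegral.integral_div,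
          intervalIntegral.integral_add ((hGc i).intervalIntegrable _ _)
            ((hGc j).intervalIntegrable _ _), hJ, hJ]
      · intro j _
        exact (Continuous.intervalIntegrable (by
          have := hGc i
          have := hGc j
          fun_prop) _ _)
    · intro i _
      exact (Continuous.intervalIntegrable (by
        have := hGc i
        have : ∀ j, Continuous fun u => G u j := hGc
        fun_prop) _ _)
  rw [e]
  refine intervalIntegral.integral_nonneg (by norm_num) fun u hu => ?_
  rcases eq_or_lt_of_le hu.1 with h0 | h0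
  · subst h0
    simp [hG]
  rcases eq_or_lt_of_le hu.2 with h1 | h1
  · subst h1
    simp [hG]
  have hk := psd_Ku_phase φ hφ h0 h1 hc0 hc1
  have hu2 : 0 ≤ (1 / 2) * u * (1 - u) := by
    have : 0 ≤ 1 - u := by linarith
    positivity
  have := quad_nonneg (psd_smul hu2 hk) ξ
  refine this.trans_eq ?_
  refine Finset.sum_congr rfl fun i _ => Finset.sum_congr rfl fun j _ => ?_
  simp only [hG]
  ring

/-- divided difference of `q` on the whole square. -/
noncomputable def qdd (y y' : ℝ) : ℝ := if y = y' then qq' y else (qq y - qq y') / (y - y')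

/-- the kernel `τ`. -/
noncomputable def tauq (y y' : ℝ) : ℝ := 4 * qq y * qq y' + 2 * qdd y y' + π ^ 2 / 4

lemma tauq_eq {y y' : ℝ} (h0 : 0 < y) (h2 : y < 2) (h0' : 0 < y') (h2' : y' < 2) :
    tauq y y' = -(π ^ 2 / 4) * ((sinc (π * y / 2 - π * y' / 2) - cos (π * y / 2 - π * y' / 2))
      / (sin (π * y / 2) * sin (π * y' / 2))) := by
  have hs := sin_pos_of_mem h0 h2
  have hs' := sin_pos_of_mem h0' h2'
  have hp := pi_pos
  unfold tauq qdd
  by_cases hne : y = y'
  · subst hne
    simp only [if_true, sub_self, sinc_zero, cos_zero, zero_div, mul_zero]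
    unfold qq qq'
    have hsc := sin_sq_add_cos_sq (π * y / 2)
    field_simp
    nlinarith [hsc]
  simp only [if_neg hne]
  set a : ℝ := π * y / 2 with ha
  set a' : ℝ := π * y' / 2 with ha'
  set d : ℝ := a - a' with hd
  have hd0 : d ≠ 0 := by
    intro h
    apply hne
    have : π * y / 2 = π * y' / 2 := by
      rw [← ha, ← ha']
      linarith
    have h3 : π * y = π * y' := by linarith
    exact mul_left_cancel₀ hp.ne' h3
  have hdy : y - y' = 2 * d / π := by
    rw [hd, ha, ha']
    field_simp
  have e1 : qq y - qq y' = -(π / 4) * sin d / (sin a * sin a') := by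
    unfold qq
    rw [← ha, ← ha', hd, sin_sub]
    field_simp
    ring
  have e2 : cos d = cos a * cos a' + sin a * sin a' := by
    rw [hd, cos_sub]
  rw [e1, hdy, sinc_of_ne_zero hd0]
  unfold qq
  rw [← ha, ← ha', e2]
  field_simp
  ring

lemma sum3_rev (F : ι → ι → ι → ℝ) :
    ∑ i, ∑ j, ∑ k, F i j k = ∑ i, ∑ j, ∑ k, F k j i := by
  calc ∑ i, ∑ j, ∑ k, F i j k = ∑ i, ∑ k, ∑ j, F i j k :=
        Finset.sum_congr rfl fun i _ => Finset.sum_comm
    _ = ∑ k, ∑ i, ∑ j, F i j k := Finset.sum_comm
    _ = ∑ k, ∑ j, ∑ i, F i j k := Finset.sum_congr rfl fun k _ => Finset.sum_comm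

lemma sum3_swap23 (F : ι → ι → ι → ℝ) :
    ∑ i, ∑ j, ∑ k, F i j k = ∑ i, ∑ j, ∑ k, F i k j :=
  Finset.sum_congr rfl fun i _ => Finset.sum_comm

/-- **The sign of the remainder.** For every positive semidefinite `R` and every spectrum in
`(0,1)`, `∑ R i j R j k R k i τ (g i + g j, g j + g k) ≤ 0`. -/
theorem remainder_le [DecidableEq ι] (R : Matrix ι ι ℝ) (hR : R.PosSemidef) (g : ι → ℝ)
    (hg : ∀ i, 0 < g i ∧ g i < 1) :
    ∑ i, ∑ j, ∑ k, R i j * R j k * R k i * tauq (g i + g j) (g j + g k) ≤ 0 := by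
  have hp := pi_pos
  set φ : ι → ℝ := fun i => π * g i with hφdef
  have hφ : ∀ i, 0 < φ i ∧ φ i < π := fun i => by
    have := hg i
    exact ⟨by simp only [hφdef]; nlinarith [this.1], by simp only [hφdef]; nlinarith [this.2]⟩
  set s : ι → ι → ℝ := fun i j => sin ((φ i + φ j) / 2) with hs
  have hspos : ∀ i j, 0 < s i j := fun i j =>
    sin_pos_of_pos_of_lt_pi (by linarith [(hφ i).1, (hφ j).1]) (by linarith [(hφ i).2, (hφ j).2])
  have hssym : ∀ i j, s i j = s j i := fun i j => by
    simp only [hs]
    rw [add_comm]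
  have hRsym : ∀ i j, R i j = R j i := fun i j => by
    have := hR.isHermitian.apply j i
    simpa using this
  set T : ι → ι → ℝ := fun i j => R i j / s i j with hT
  have hTsym : ∀ i j, T i j = T j i := fun i j => by
    simp only [hT]
    rw [hRsym i j, hssym i j]
  have hRT : ∀ i j, R i j = T i j * s i j := fun i j => by
    simp only [hT]
    have := (hspos i j).ne'
    field_simp
  set h : ι → ι → ℝ := fun i j => φ i - φ j with hh
  set J : ι → ι → ℝ := fun i j => Jf (φ i) (φ j) with hJ
  have hJsym : ∀ i j, J i j = J j i := fun i j => Jf_symm _ _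
  -- the term by term formula
  have hterm : ∀ i j k, R i j * R j k * R k i * tauq (g i + g j) (g j + g k)
      = -(π ^ 2 / 4) * (T i j * T j k * T k i * (h i k ^ 2 * J i k)) := by
    intro i j k
    have hy1 : 0 < g i + g j := by linarith [(hg i).1, (hg j).1]
    have hy2 : g i + g j < 2 := by linarith [(hg i).2, (hg j).2]
    have hy3 : 0 < g j + g k := by linarith [(hg j).1, (hg k).1]
    have hy4 : g j + g k < 2 := by linarith [(hg j).2, (hg k).2]
    rw [tauq_eq hy1 hy2 hy3 hy4]
    have e1 : π * (g i + g j) / 2 = (φ i + φ j) / 2 := by simp only [hφdef]; ring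
    have e2 : π * (g j + g k) / 2 = (φ j + φ k) / 2 := by simp only [hφdef]; ring
    have e3 : (φ i + φ j) / 2 - (φ j + φ k) / 2 = (φ i - φ k) / 2 := by ring
    rw [e1, e2, e3]
    have hJm := Jf_mul (φ i) (φ k)
    have e4 : h i k ^ 2 * J i k = s i k * (sinc ((φ i - φ k) / 2) - cos ((φ i - φ k) / 2)) := hJm
    rw [e4, hRT i j, hRT j k, hRT k i, hssym k i]
    have h1 := (hspos i j).ne'
    have h2 := (hspos j k).ne'
    change T i j * s i j * (T j k * s j k) * (T k i * s i k) * _ = _
    have e5 : sin ((φ i + φ j) / 2) = s i j := rfl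
    have e6 : sin ((φ j + φ k) / 2) = s j k := rfl
    rw [e5, e6]
    field_simp
  rw [Finset.sum_congr rfl fun i _ => Finset.sum_congr rfl fun j _ =>
    Finset.sum_congr rfl fun k _ => hterm i j k]
  simp only [← Finset.mul_sum]
  have hmain : 0 ≤ ∑ i, ∑ j, ∑ k, T i j * T j k * T k i * (h i k ^ 2 * J i k) := by
    -- the centred form
    set X : ℝ := ∑ j, ∑ i, ∑ k, (T i j * h i j) * (T k j * h k j) * (T i k * (J i j + J k j)) with hX
    have hX0 : 0 ≤ X := by
      refine Finset.sum_nonneg fun j _ => ?_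
      have hc := psd_J φ hφ (c := φ j) (hφ j).1.le (hφ j).2.le
      have hpsd := psd_mul (ι := ι) (k := fun i k => R i k)
        (by
          have : Matrix.of (fun i k => R i k) = R := by
            ext i k
            simp
          rw [this]
          exact hR) hc
      have := quad_nonneg hpsd (fun i => T i j * h i j)
      refine this.trans_eq ?_
      refine Finset.sum_congr rfl fun i _ => Finset.sum_congr rfl fun k _ => ?_
      congr 1
      simp only [hT, hJ, hs]
      ring
    -- first term
    set S : ℝ := ∑ i, ∑ j, ∑ k, T i j * T j k * T k i * (h i k * h j k * J i k) with hS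
    have hX1 : ∑ j, ∑ i, ∑ k, (T i j * h i j) * (T k j * h k j) * (T i k * J i j) = S := by
      rw [Finset.sum_comm, sum3_swap23]
      refine Finset.sum_congr rfl fun i _ => Finset.sum_congr rfl fun j _ =>
        Finset.sum_congr rfl fun k _ => ?_
      rw [hTsym k i]
      ring
    have hX2 : ∑ j, ∑ i, ∑ k, (T i j * h i j) * (T k j * h k j) * (T i k * J k j) = S := by
      rw [← hX1]
      refine Finset.sum_congr rfl fun j _ => ?_
      rw [Finset.sum_comm]
      refine Finset.sum_congr rfl fun i _ => Finset.sum_congr rfl fun k _ => ?_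
      rw [hTsym k i]
      ring
    have hXS : X = 2 * S := by
      rw [hX, two_mul]
      nth_rewrite 1 [← hX1]
      rw [← hX2, ← Finset.sum_add_distrib]
      refine Finset.sum_congr rfl fun j _ => ?_
      rw [← Finset.sum_add_distrib]
      refine Finset.sum_congr rfl fun i _ => ?_
      rw [← Finset.sum_add_distrib]
      refine Finset.sum_congr rfl fun k _ => ?_
      ring
    have hSrev : S = ∑ i, ∑ j, ∑ k, T k j * T j i * T i k * (h k i * h j i * J k i) := by
      rw [hS]
      exact sum3_rev _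
    have hA : 2 * S = ∑ i, ∑ j, ∑ k, T i j * T j k * T k i * (h i k ^ 2 * J i k) := by
      rw [two_mul]
      nth_rewrite 2 [hSrev]
      rw [hS, ← Finset.sum_add_distrib]
      refine Finset.sum_congr rfl fun i _ => ?_
      rw [← Finset.sum_add_distrib]
      refine Finset.sum_congr rfl fun j _ => ?_
      rw [← Finset.sum_add_distrib]
      refine Finset.sum_congr rfl fun k _ => ?_
      rw [hTsym k j, hTsym j i, hTsym i k, hJsym k i]
      simp only [hh]
      ring
    rw [← hA, ← hXS]
    exact hX0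
  have hpi2 : 0 ≤ π ^ 2 / 4 := by positivity
  nlinarith

end Vale.Agent.P371m
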