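import Vale.Agent.P371m.Algebra
import Vale.Agent.P371m.Remainder
import Vale.Agent.P371h8.Pointwise

/-! Module MM: the pointwise inequality for the matrix Bellman function. -/

namespace Vale.Agent.P371m
open Matrix BigOperators Real MeasureTheory
open Vale.Agent.P371h8 (dd pev pdd exists_spectral eig_bounds)

variable {ι κ : Type*} [Fintype ι] [DecidableEq ι] [Fintype κ]

omit [Fintype ι] [DecidableEq ι] in
/-- Entries of `β βᵀ`. -/
lemma mul_transpose_apply (β ν : Matrix ι κ ℝ) (i j : ι) :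
    (β * νᵀ) i j = ∑ α, β i α * ν j α := by
  simp [Matrix.mul_apply]

omit [DecidableEq ι] in
lemma trace_mul_transpose (β : Matrix ι κ ℝ) : trace (β * βᵀ) = ∑ i, ∑ α, β i α ^ 2 := by
  simp only [Matrix.trace, Matrix.diag, mul_transpose_apply, pow_two]

omit [DecidableEq ι] [Fintype κ] in
/-- The triple sum is the trace of the cube. -/
lemma trace_cube (R : Matrix ι ι ℝ) :
    trace (R * R * R) = ∑ i, ∑ j, ∑ l, R i j * R j l * R l i := by
  simp only [Matrix.trace, Matrix.diag, Matrix.mul_apply, Finset.sum_mul]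
  refine Finset.sum_congr rfl fun i _ => ?_
  rw [Finset.sum_comm]

omit [DecidableEq ι] in
/-- Absolute value of the triple products. -/
lemma abs_triple_le (β : Matrix ι κ ℝ) :
    ∑ i, ∑ j, ∑ l, |(β * βᵀ) i j * (β * βᵀ) j l * (β * βᵀ) l i| ≤ trace (β * βᵀ) ^ 3 := by
  set R := β * βᵀ with hR
  have hd : ∀ i, 0 ≤ R i i := fun i => by
    rw [hR, mul_transpose_apply]
    exact Finset.sum_nonneg fun α _ => mul_self_nonneg _
  have hcs : ∀ i j, R i j ^ 2 ≤ R i i * R j j := fun i j => by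
    simp only [hR, mul_transpose_apply]
    exact Finset.sum_mul_sq_le_sq_mul_sq _ _ _ |>.trans_eq (by simp only [pow_two])
  have hsymm : ∀ i j, R j i = R i j := fun i j => by
    simp only [hR, mul_transpose_apply]
    exact Finset.sum_congr rfl fun α _ => mul_comm _ _
  have hterm : ∀ i j l, |R i j * R j l * R l i| ≤ R i i * R j j * R l l := fun i j l => by
    apply abs_le_of_sq_le_sq _ (mul_nonneg (mul_nonneg (hd i) (hd j)) (hd l))
    have h1 := hcs i j
    have h2 := hcs j l
    have h3 := hcs l i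
    have e : (R i j * R j l * R l i) ^ 2 = R i j ^ 2 * R j l ^ 2 * R l i ^ 2 := by ring
    have e2 : (R i i * R j j * R l l) ^ 2 = (R i i * R j j) * (R j j * R l l) * (R l l * R i i) := by
      ring
    rw [e, e2]
    exact mul_le_mul (mul_le_mul h1 h2 (sq_nonneg _) (mul_nonneg (hd i) (hd j))) h3 (sq_nonneg _)
      (mul_nonneg (mul_nonneg (hd i) (hd j)) (mul_nonneg (hd j) (hd l)))
  have htr : trace R = ∑ i, R i i := rfl
  have hcube : trace R ^ 3 = ∑ i, ∑ j, ∑ l, R i i * R j j * R l l := by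
    have e : trace R ^ 3 = trace R * (trace R * trace R) := by ring
    rw [e, htr, Finset.sum_mul]
    refine Finset.sum_congr rfl fun i _ => ?_
    rw [Finset.sum_mul_sum, Finset.mul_sum]
    refine Finset.sum_congr rfl fun j _ => ?_
    rw [Finset.mul_sum]
    refine Finset.sum_congr rfl fun l _ => ?_
    ring
  rw [hcube]
  exact Finset.sum_le_sum fun i _ => Finset.sum_le_sum fun j _ => Finset.sum_le_sum fun l _ =>
    hterm i j l

omit [Fintype κ] in
lemma trace_conj_rot {Q : Matrix ι ι ℝ} (hQ' : Q * Qᵀ = 1) (X : Matrix ι ι ℝ) :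
    trace (Qᵀ * X * Q) = trace X := by
  rw [Matrix.trace_mul_comm, ← Matrix.mul_assoc, hQ', Matrix.one_mul]

theorem DBp_le (a : ℕ → ℝ) (d : ℕ) (ε δ : ℝ) (hε : 0 < ε) (hε2 : ε < 1 / 2)
    (hK : ∀ y ∈ Set.Icc (2 * ε) (2 - 2 * ε), ∀ y' ∈ Set.Icc (2 * ε) (2 - 2 * ε),
      |4 * pev a d y * pev a d y' + 2 * pdd a d y y' + π ^ 2 / 4 - tauq y y'| ≤ δ)
    (G : Matrix ι ι ℝ) (hsymm : G.IsSymm)
    (hlow : ∀ u : ι → ℝ, ε * (u ⬝ᵥ u) ≤ u ⬝ᵥ (G *ᵥ u))
    (hup : ∀ u : ι → ℝ, u ⬝ᵥ (G *ᵥ u) ≤ (1 - ε) * (u ⬝ᵥ u))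
    (b v : Matrix ι κ ℝ) :
    DBp a d G (b * bᵀ) (v * bᵀ + b * vᵀ) ≤
      trace (v * vᵀ) - π ^ 2 / 4 * trace ((b * bᵀ) * (b * bᵀ) * (b * bᵀ))
        + δ * trace (b * bᵀ) ^ 3 := by
  obtain ⟨Q, g, hQ, hG⟩ := exists_spectral G hsymm
  have hg := eig_bounds hQ hG hlow hup
  have hQ' : Q * Qᵀ = 1 := mul_eq_one_comm.1 hQ
  set β : Matrix ι κ ℝ := Qᵀ * b with hβ
  set ν : Matrix ι κ ℝ := Qᵀ * v with hν
  set R' : Matrix ι ι ℝ := β * βᵀ with hR'
  -- the rotated matrices
  have eR : Qᵀ * (b * bᵀ) * Q = R' := by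
    simp only [hR', hβ, Matrix.transpose_mul, Matrix.transpose_transpose, Matrix.mul_assoc]
  have eD : Qᵀ * (v * bᵀ + b * vᵀ) * Q = ν * βᵀ + β * νᵀ := by
    simp only [hν, hβ, Matrix.transpose_mul, Matrix.transpose_transpose, Matrix.mul_assoc,
      Matrix.mul_add, Matrix.add_mul]
  have hRs : (b * bᵀ).IsSymm := by
    simp [Matrix.IsSymm, Matrix.transpose_mul]
  have hDs : (v * bᵀ + b * vᵀ).IsSymm := by
    simp [Matrix.IsSymm, Matrix.transpose_mul, Matrix.transpose_add, add_comm]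
  -- traces
  have t1 : trace (v * vᵀ) = trace (ν * νᵀ) := by
    have : ν * νᵀ = Qᵀ * (v * vᵀ) * Q := by
      simp only [hν, Matrix.transpose_mul, Matrix.transpose_transpose, Matrix.mul_assoc]
    rw [this, trace_conj_rot hQ']
  have t2 : trace (b * bᵀ) = trace R' := by
    rw [← eR, trace_conj_rot hQ']
  have t3 : trace ((b * bᵀ) * (b * bᵀ) * (b * bᵀ)) = trace (R' * R' * R') := by
    have : R' * R' * R' = Qᵀ * ((b * bᵀ) * (b * bᵀ) * (b * bᵀ)) * Q := by
      rw [← eR]
      have hc : ∀ X Y : Matrix ι ι ℝ, (Qᵀ * X * Q) * (Qᵀ * Y * Q) = Qᵀ * (X * Y) * Q := by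
        intro X Y
        calc (Qᵀ * X * Q) * (Qᵀ * Y * Q) = Qᵀ * X * (Q * Qᵀ) * Y * Q := by
              simp only [Matrix.mul_assoc]
          _ = Qᵀ * (X * Y) * Q := by
              rw [hQ']
              simp only [Matrix.mul_assoc, Matrix.mul_one]
      rw [hc, hc]
    rw [this, trace_conj_rot hQ']
  rw [t1, t2, t3, trace_cube, trace_mul_transpose ν]
  -- the spectral form
  set P : ι → ι → ℝ := fun i j => pev a d (g i + g j) with hP
  set Pi : ι → ι → ι → ℝ := fun i j l => R' i j * R' j l * R' l i with hPi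
  have hform : DBp a d G (b * bᵀ) (v * bᵀ + b * vᵀ) =
      2 * ∑ i, ∑ j, (ν * βᵀ + β * νᵀ) i j * R' i j * P i j
      + 2 * ∑ i, ∑ j, ∑ l, Pi i j l * pdd a d (g i + g j) (g i + g l) := by
    unfold DBp
    simp_rw [DBn_spectral Q g hQ G hG _ _ hRs hDs, eR, eD]
    simp only [mul_add, Finset.sum_add_distrib]
    congr 1
    · simp only [Finset.mul_sum]
      rw [Finset.sum_comm]
      refine Finset.sum_congr rfl fun i _ => ?_
      rw [Finset.sum_comm]
      refine Finset.sum_congr rfl fun j _ => ?_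
      simp only [hP, pev, Finset.mul_sum]
      refine Finset.sum_congr rfl fun n _ => ?_
      ring
    · simp only [Finset.mul_sum]
      rw [Finset.sum_comm]
      refine Finset.sum_congr rfl fun i _ => ?_
      rw [Finset.sum_comm]
      refine Finset.sum_congr rfl fun j _ => ?_
      rw [Finset.sum_comm]
      refine Finset.sum_congr rfl fun l _ => ?_
      simp only [hPi, pdd, Finset.mul_sum]
      refine Finset.sum_congr rfl fun n _ => ?_
      ring
  rw [hform]
  have hRsymm : ∀ i j, R' j i = R' i j := fun i j => by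
    simp only [hR', mul_transpose_apply]
    exact Finset.sum_congr rfl fun α _ => mul_comm _ _
  have hPsymm : ∀ i j, P j i = P i j := fun i j => by
    simp only [hP, add_comm]
  -- the linear term
  set E : ι → κ → ℝ := fun i α => ∑ j, P i j * R' i j * β j α with hE
  have h1 : ∑ i, ∑ j, (ν * βᵀ + β * νᵀ) i j * R' i j * P i j = 2 * ∑ i, ∑ α, ν i α * E i α := by
    have e1 : ∑ i, ∑ j, (ν * βᵀ) i j * R' i j * P i j = ∑ i, ∑ α, ν i α * E i α := by
      refine Finset.sum_congr rfl fun i _ => ?_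
      simp only [hE, mul_transpose_apply, Finset.mul_sum, Finset.sum_mul]
      rw [Finset.sum_comm]
      refine Finset.sum_congr rfl fun α _ => Finset.sum_congr rfl fun j _ => ?_
      ring
    have e2 : ∑ i, ∑ j, (β * νᵀ) i j * R' i j * P i j = ∑ i, ∑ α, ν i α * E i α := by
      rw [Finset.sum_comm, ← e1]
      refine Finset.sum_congr rfl fun i _ => Finset.sum_congr rfl fun j _ => ?_
      have : (β * νᵀ) j i = (ν * βᵀ) i j := by
        simp only [mul_transpose_apply]
        exact Finset.sum_congr rfl fun α _ => mul_comm _ _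
      rw [this, hRsymm, hPsymm]
    simp only [Matrix.add_apply, add_mul, Finset.sum_add_distrib]
    rw [e1, e2]
    ring
  -- the square
  have h2 : 4 * ∑ i, ∑ α, ν i α * E i α ≤ ∑ i, ∑ α, ν i α ^ 2 + 4 * ∑ i, ∑ α, E i α ^ 2 := by
    simp only [Finset.mul_sum]
    rw [← Finset.sum_add_distrib]
    refine Finset.sum_le_sum fun i _ => ?_
    rw [← Finset.sum_add_distrib]
    refine Finset.sum_le_sum fun α _ => ?_
    nlinarith [sq_nonneg (ν i α - 2 * E i α)]
  -- the triple sum
  have h3 : ∑ i, ∑ α, E i α ^ 2 = ∑ i, ∑ j, ∑ l, Pi i j l * (P i j * P i l) := by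
    refine Finset.sum_congr rfl fun i _ => ?_
    have e : ∀ α, E i α ^ 2 = ∑ j, ∑ l, (P i j * R' i j * β j α) * (P i l * R' i l * β l α) := by
      intro α
      simp only [hE]
      rw [pow_two, Finset.sum_mul_sum]
    simp only [e]
    rw [Finset.sum_comm]
    refine Finset.sum_congr rfl fun j _ => ?_
    rw [Finset.sum_comm]
    refine Finset.sum_congr rfl fun l _ => ?_
    have e4 : (∑ α, β j α * β l α) = R' j l := (mul_transpose_apply β β j l).symm
    have e3 : Pi i j l * (P i j * P i l) =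
        (P i j * R' i j * (P i l * R' i l)) * ∑ α, β j α * β l α := by
      rw [e4]
      simp only [hPi]
      rw [hRsymm i l]
      ring
    rw [e3, Finset.mul_sum]
    refine Finset.sum_congr rfl fun α _ => ?_
    ring
  -- the kernel
  have hg01 : ∀ i, 0 < g i ∧ g i < 1 := fun i => by
    have h1 := (hg i).1
    have h2 := (hg i).2
    constructor <;> linarith
  have hRpsd : R'.PosSemidef := by
    have := Matrix.posSemidef_self_mul_conjTranspose β
    rwa [conjTranspose_eq_transpose_of_trivial] at this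
  have h4 : ∑ i, ∑ j, ∑ l, Pi i j l * tauq (g i + g j) (g i + g l) ≤ 0 := by
    have hr := remainder_le R' hRpsd g hg01
    refine le_of_eq_of_le ?_ hr
    rw [Finset.sum_comm]
    refine Finset.sum_congr rfl fun i _ => Finset.sum_congr rfl fun j _ =>
      Finset.sum_congr rfl fun l _ => ?_
    simp only [hPi]
    rw [hRsymm i j, hRsymm l i, hRsymm j l, add_comm (g j) (g i)]
    ring
  -- δ is nonnegative
  have hδ : 0 ≤ δ := by
    have h1 : (1 : ℝ) ∈ Set.Icc (2 * ε) (2 - 2 * ε) := ⟨by linarith, by linarith⟩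
    exact (abs_nonneg _).trans (hK 1 h1 1 h1)
  -- the error term
  have h5 : ∑ i, ∑ j, ∑ l, Pi i j l * (4 * (P i j * P i l) + 2 * pdd a d (g i + g j) (g i + g l)
        + π ^ 2 / 4) ≤
      ∑ i, ∑ j, ∑ l, Pi i j l * tauq (g i + g j) (g i + g l) + δ * trace R' ^ 3 := by
    have habs := abs_triple_le β
    have hδ2 := mul_le_mul_of_nonneg_left habs hδ
    refine le_trans ?_ (add_le_add_right hδ2 _)
    simp only [Finset.mul_sum]
    rw [← Finset.sum_add_distrib]
    refine Finset.sum_le_sum fun i _ => ?_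
    rw [← Finset.sum_add_distrib]
    refine Finset.sum_le_sum fun j _ => ?_
    rw [← Finset.sum_add_distrib]
    refine Finset.sum_le_sum fun l _ => ?_
    have hy : g i + g j ∈ Set.Icc (2 * ε) (2 - 2 * ε) :=
      ⟨by linarith [(hg i).1, (hg j).1], by linarith [(hg i).2, (hg j).2]⟩
    have hy' : g i + g l ∈ Set.Icc (2 * ε) (2 - 2 * ε) :=
      ⟨by linarith [(hg i).1, (hg l).1], by linarith [(hg i).2, (hg l).2]⟩
    have hk := hK _ hy _ hy'
    have hk' : |4 * P i j * P i l + 2 * pdd a d (g i + g j) (g i + g l) + π ^ 2 / 4 -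
        tauq (g i + g j) (g i + g l)| ≤ δ := hk
    set err : ℝ := 4 * P i j * P i l + 2 * pdd a d (g i + g j) (g i + g l) + π ^ 2 / 4 -
        tauq (g i + g j) (g i + g l) with herr
    have e : Pi i j l * (4 * (P i j * P i l) + 2 * pdd a d (g i + g j) (g i + g l) + π ^ 2 / 4) =
        Pi i j l * tauq (g i + g j) (g i + g l) + Pi i j l * err := by
      rw [herr]
      ring
    rw [e]
    have h7 : Pi i j l * err ≤ |Pi i j l| * δ := by
      calc Pi i j l * err ≤ |Pi i j l * err| := le_abs_self _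
        _ = |Pi i j l| * |err| := abs_mul _ _
        _ ≤ |Pi i j l| * δ := mul_le_mul_of_nonneg_left hk' (abs_nonneg _)
    have h8 : |Pi i j l| * δ = δ * |R' i j * R' j l * R' l i| := by
      simp only [hPi]
      ring
    linarith
  have h6 : ∑ i, ∑ j, ∑ l, Pi i j l * (4 * (P i j * P i l) + 2 * pdd a d (g i + g j) (g i + g l)
        + π ^ 2 / 4) =
      4 * ∑ i, ∑ j, ∑ l, Pi i j l * (P i j * P i l) +
        2 * ∑ i, ∑ j, ∑ l, Pi i j l * pdd a d (g i + g j) (g i + g l) +
        π ^ 2 / 4 * ∑ i, ∑ j, ∑ l, R' i j * R' j l * R' l i := by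
    simp only [Finset.mul_sum]
    rw [← Finset.sum_add_distrib, ← Finset.sum_add_distrib]
    refine Finset.sum_congr rfl fun i _ => ?_
    rw [← Finset.sum_add_distrib, ← Finset.sum_add_distrib]
    refine Finset.sum_congr rfl fun j _ => ?_
    rw [← Finset.sum_add_distrib, ← Finset.sum_add_distrib]
    refine Finset.sum_congr rfl fun l _ => ?_
    simp only [hPi]
    ring
  rw [h1]
  rw [h3] at h2
  linarith

end Vale.Agent.P371m
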