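import Vale.Agent.P371m.Remainder
import Vale.Agent.P371h8.Poly

/-! Two sided polynomial approximation of the kernel `τ`. -/

open Real Set Filter Topology Polynomial
open Vale.Agent.P371h11
open Vale.Agent.P371h8 (pev pdd pev_eq pdd_mul continuous_pev continuous_pdd)

namespace Vale.Agent.P371m

/-- The polynomial kernel is uniformly close to the exact kernel `τ`. -/
theorem exists_poly_two (ε δ : ℝ) (hε : 0 < ε) (hε2 : ε < 1 / 2) (hδ : 0 < δ) :
    ∃ (d : ℕ) (a : ℕ → ℝ), ∀ y ∈ Icc (2 * ε) (2 - 2 * ε), ∀ y' ∈ Icc (2 * ε) (2 - 2 * ε),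
      |4 * pev a d y * pev a d y' + 2 * pdd a d y y' + π ^ 2 / 4 - tauq y y'| ≤ δ := by
  have hε1 : ε < 1 := by linarith
  obtain ⟨M, hM⟩ := (isCompact_Icc (a := ε) (b := 2 - ε)).exists_bound_of_continuousOn
    (continuousOn_qq hε (by linarith))
  have hM0 : 0 ≤ M := (norm_nonneg _).trans (hM 1 ⟨hε1.le, by linarith⟩)
  set η : ℝ := min 1 (δ / (8 * M + 6)) with hη
  have hη0 : 0 < η := lt_min one_pos (by positivity)
  have hη1 : η ≤ 1 := min_le_left _ _
  have hη2 : η * (8 * M + 6) ≤ δ := by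
    have := min_le_right 1 (δ / (8 * M + 6))
    rw [← hη] at this
    rwa [le_div_iff₀ (by positivity)] at this
  obtain ⟨p, hp1, hp2⟩ := exists_poly_near hε hε1 hη0
  refine ⟨p.natDegree + 1, p.coeff, ?_⟩
  set a := p.coeff with ha
  set d := p.natDegree + 1 with hd
  have hev : ∀ z, p.eval z = pev a d z := fun z => (pev_eq p z).symm
  have hne : ∀ y ∈ Icc ε (2 - ε), ∀ y' ∈ Icc ε (2 - ε), y ≠ y' →
      |4 * pev a d y * pev a d y' + 2 * pdd a d y y' + π ^ 2 / 4 - tauq y y'| ≤ δ := by
    intro y hy y' hy' hne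
    have hq1 : |qq y| ≤ M := by simpa [Real.norm_eq_abs] using hM y hy
    have hq2 : |qq y'| ≤ M := by simpa [Real.norm_eq_abs] using hM y' hy'
    have hd1 := hp1 y hy
    have hd2 := hp1 y' hy'
    have hdd := hp2 y hy y' hy'
    have hyy : 0 < |y - y'| := abs_pos.2 (sub_ne_zero.2 hne)
    have hy0 : y - y' ≠ 0 := sub_ne_zero.2 hne
    set u := p.eval y - qq y with hu
    set v := p.eval y' - qq y' with hv
    have e1 : pev a d y = qq y + u := by rw [← hev, hu]; ring
    have e2 : pev a d y' = qq y' + v := by rw [← hev, hv]; ring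
    have hpdd : pdd a d y y' = (qq y - qq y') / (y - y') + (u - v) / (y - y') := by
      have h1 := pdd_mul a d y y'
      rw [e1, e2] at h1
      field_simp
      linarith
    have hqd : qdd y y' = (qq y - qq y') / (y - y') := by
      simp [qdd, hne]
    have h9 : |(u - v) / (y - y')| ≤ η := by
      rw [abs_div, div_le_iff₀ hyy]
      exact hdd
    have h3 : |qq y * v| ≤ M * η := by
      rw [abs_mul]
      exact mul_le_mul hq1 hd2 (abs_nonneg _) hM0
    have h4 : |u * qq y'| ≤ η * M := by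
      rw [abs_mul]
      exact mul_le_mul hd1 hq2 (abs_nonneg _) hη0.le
    have h5 : |u * v| ≤ η * η := by
      rw [abs_mul]
      exact mul_le_mul hd1 hd2 (abs_nonneg _) hη0.le
    have key : 4 * pev a d y * pev a d y' + 2 * pdd a d y y' + π ^ 2 / 4 - tauq y y' =
        4 * (qq y * v) + 4 * (u * qq y') + 4 * (u * v) + 2 * ((u - v) / (y - y')) := by
      rw [e1, e2, hpdd]
      unfold tauq
      rw [hqd]
      ring
    rw [key]
    have a1 := abs_le.1 h3
    have a2 := abs_le.1 h4
    have a3 := abs_le.1 h5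
    have a4 := abs_le.1 h9
    have hηη : η * η ≤ η := by nlinarith
    rw [abs_le]
    constructor <;> nlinarith
  intro y hy y' hy'
  have hyL : y ∈ Icc ε (2 - ε) := ⟨by linarith [hy.1], by linarith [hy.2]⟩
  have hyL' : y' ∈ Icc ε (2 - ε) := ⟨by linarith [hy'.1], by linarith [hy'.2]⟩
  by_cases h : y = y'
  · subst h
    have hy0 : 0 < y := by linarith [hy.1]
    have hy2 : y < 2 := by linarith [hy.2]
    have hder := hasDerivAt_qq hy0 hy2
    -- the slope of `qq` converges to the derivative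
    have hslope : Tendsto (fun t => (qq y - qq t) / (y - t)) (𝓝[≠] y) (𝓝 (qq' y)) := by
      have := hasDerivAt_iff_tendsto_slope.1 hder
      refine this.congr fun t => ?_
      simp only [slope_def_field]
      rw [← neg_div_neg_eq]
      congr 1 <;> ring
    have hqc : Tendsto qq (𝓝[≠] y) (𝓝 (qq y)) :=
      hder.continuousAt.tendsto.mono_left nhdsWithin_le_nhds
    have hpc : Tendsto (pev a d) (𝓝[≠] y) (𝓝 (pev a d y)) :=
      ((continuous_pev a d).tendsto y).mono_left nhdsWithin_le_nhds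
    have hdc : Tendsto (pdd a d y) (𝓝[≠] y) (𝓝 (pdd a d y y)) :=
      ((continuous_pdd a d y).tendsto y).mono_left nhdsWithin_le_nhds
    have hval : tauq y y = 4 * qq y * qq y + 2 * qq' y + π ^ 2 / 4 := by
      simp [tauq, qdd]
    have hlim : Tendsto (fun t => |4 * pev a d y * pev a d t + 2 * pdd a d y t + π ^ 2 / 4 -
        (4 * qq y * qq t + 2 * ((qq y - qq t) / (y - t)) + π ^ 2 / 4)|) (𝓝[≠] y)
        (𝓝 |4 * pev a d y * pev a d y + 2 * pdd a d y y + π ^ 2 / 4 - tauq y y|) := by
      rw [hval]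
      refine Tendsto.abs ?_
      refine Tendsto.sub (((hpc.const_mul _).add (hdc.const_mul _)).add tendsto_const_nhds) ?_
      exact ((hqc.const_mul _).add (hslope.const_mul _)).add tendsto_const_nhds
    refine le_of_tendsto hlim ?_
    have hnear : Ioo ε (2 - ε) ∈ 𝓝 y := Ioo_mem_nhds (by linarith [hy.1]) (by linarith [hy.2])
    filter_upwards [mem_nhdsWithin_of_mem_nhds hnear, self_mem_nhdsWithin] with t ht htne
    have htne' : t ≠ y := htne
    have h1 := hne y hyL t ⟨ht.1.le, ht.2.le⟩ (Ne.symm htne')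
    have h2 : tauq y t = 4 * qq y * qq t + 2 * ((qq y - qq t) / (y - t)) + π ^ 2 / 4 := by
      simp [tauq, qdd, Ne.symm htne']
    rwa [h2] at h1
  · exact hne y hyL y' hyL' h

end Vale.Agent.P371m
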