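import Vale.Agent.P371m.PathDeriv
import Vale.Agent.P371m.Poly
import Vale.Agent.P371m.Pointwise

open Matrix BigOperators Real MeasureTheory Set Filter Topology

namespace Vale.Agent.P371m

open Vale.Agent.P371h8 (dd pev pdd)

variable {ι κ : Type*} [Fintype ι] [DecidableEq ι] [Fintype κ]

/-- the matrix of the values of a family of functions -/
noncomputable def fmat (P : ι → κ → ℝ → ℝ) (x : ℝ) : Matrix ι κ ℝ := Matrix.of fun i a => P i a x

omit [Fintype ι] [DecidableEq ι] [Fintype κ] in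
lemma fmat_apply (P : ι → κ → ℝ → ℝ) (x : ℝ) (i : ι) (a : κ) : fmat P x i a = P i a x := rfl

omit [Fintype ι] [DecidableEq ι] in
lemma mul_tr_apply (A B : Matrix ι κ ℝ) (i j : ι) : (A * Bᵀ) i j = ∑ a, A i a * B j a := by
  simp [Matrix.mul_apply]

/-- the path `G x = ε 1 + ∫_{-L}^x b bᵀ` -/
noncomputable def GG (ε L : ℝ) (P : ι → κ → ℝ → ℝ) (x : ℝ) : Matrix ι ι ℝ :=
  Matrix.of fun i j => (if i = j then ε else 0) + ∫ t in (-L)..x, (fmat P t * (fmat P t)ᵀ) i j

omit [Fintype ι] [DecidableEq ι] in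
lemma cont_R {P : ι → κ → ℝ → ℝ} (hPc : ∀ i a, Continuous (P i a)) (i j : ι) :
    Continuous fun t => (fmat P t * (fmat P t)ᵀ) i j := by
  simp only [mul_tr_apply, fmat_apply]
  exact continuous_finsetSum _ fun a _ => (hPc i a).mul (hPc j a)

omit [DecidableEq ι] in
lemma sq_sum_eq (P : ι → κ → ℝ → ℝ) (u : ι → ℝ) (t : ℝ) :
    ∑ a, (∑ i, u i * P i a t) ^ 2 = ∑ i, ∑ j, u i * u j * (fmat P t * (fmat P t)ᵀ) i j := by
  simp only [mul_tr_apply, fmat_apply, Finset.mul_sum]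
  calc ∑ a, (∑ i, u i * P i a t) ^ 2
      = ∑ a, ∑ i, ∑ j, u i * u j * (P i a t * P j a t) := by
        apply Finset.sum_congr rfl
        intro a _
        rw [sq, Finset.sum_mul_sum]
        apply Finset.sum_congr rfl
        intro i _
        apply Finset.sum_congr rfl
        intro j _
        ring
    _ = ∑ i, ∑ a, ∑ j, u i * u j * (P i a t * P j a t) := by rw [Finset.sum_comm]
    _ = ∑ i, ∑ j, ∑ a, u i * u j * (P i a t * P j a t) := by
        apply Finset.sum_congr rfl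
        intro i _
        rw [Finset.sum_comm]

lemma GG_quad {P : ι → κ → ℝ → ℝ} (hPc : ∀ i a, Continuous (P i a)) (ε L : ℝ) (u : ι → ℝ) (x : ℝ) :
    u ⬝ᵥ (GG ε L P x *ᵥ u) = ε * (u ⬝ᵥ u) + ∫ t in (-L)..x, ∑ a, (∑ i, u i * P i a t) ^ 2 := by
  have h1 : ∫ t in (-L)..x, ∑ a, (∑ i, u i * P i a t) ^ 2 =
      ∑ i, ∑ j, u i * u j * ∫ t in (-L)..x, (fmat P t * (fmat P t)ᵀ) i j := by
    simp_rw [sq_sum_eq]
    rw [intervalIntegral.integral_finsetSum]
    · apply Finset.sum_congr rfl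
      intro i _
      rw [intervalIntegral.integral_finsetSum]
      · apply Finset.sum_congr rfl
        intro j _
        rw [intervalIntegral.integral_const_mul]
      · intro j _
        exact ((cont_R hPc i j).const_mul _).intervalIntegrable _ _
    · intro i _
      exact (continuous_finsetSum _ fun j _ => (cont_R hPc i j).const_mul _).intervalIntegrable _ _
  rw [h1]
  simp only [dotProduct, mulVec, GG, Matrix.of_apply]
  rw [Finset.mul_sum, ← Finset.sum_add_distrib]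
  apply Finset.sum_congr rfl
  intro i _
  have h2 : ∑ j, ((if i = j then ε else 0) + ∫ t in (-L)..x, (fmat P t * (fmat P t)ᵀ) i j) * u j =
      ε * u i + ∑ j, (∫ t in (-L)..x, (fmat P t * (fmat P t)ᵀ) i j) * u j := by
    simp only [add_mul, Finset.sum_add_distrib, ite_mul, zero_mul, Finset.sum_ite_eq, Finset.mem_univ,
      if_true]
  rw [h2, mul_add, Finset.mul_sum]
  congr 1
  · ring
  · apply Finset.sum_congr rfl
    intro j _
    ring

omit [Fintype ι] in
lemma GG_symm (ε L : ℝ) (P : ι → κ → ℝ → ℝ) (x : ℝ) : (GG ε L P x).IsSymm := by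
  apply Matrix.IsSymm.ext
  intro i j
  simp only [GG, Matrix.of_apply]
  congr 1
  · by_cases h : i = j
    · simp [h]
    · simp [h, Ne.symm h]
  · apply intervalIntegral.integral_congr
    intro t _
    simp only [mul_tr_apply, fmat_apply]
    apply Finset.sum_congr rfl
    intro a _
    ring

omit [Fintype ι] in
lemma GG_deriv {P : ι → κ → ℝ → ℝ} (hPc : ∀ i a, Continuous (P i a)) (ε L : ℝ) (x : ℝ) (i j : ι) :
    HasDerivAt (fun t => GG ε L P t i j) ((fmat P x * (fmat P x)ᵀ) i j) x := by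
  simp only [GG, Matrix.of_apply]
  exact ((cont_R hPc i j).integral_hasStrictDerivAt (-L) x).hasDerivAt.const_add _

omit [Fintype ι] [DecidableEq ι] in
lemma R_deriv {P P' : ι → κ → ℝ → ℝ} (hd : ∀ i a x, HasDerivAt (P i a) (P' i a x) x) (x : ℝ) (i j : ι) :
    HasDerivAt (fun t => (fmat P t * (fmat P t)ᵀ) i j)
      ((fmat P' x * (fmat P x)ᵀ + fmat P x * (fmat P' x)ᵀ) i j) x := by
  simp only [Matrix.add_apply, mul_tr_apply, fmat_apply]
  rw [← Finset.sum_add_distrib]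
  have := HasDerivAt.fun_sum (u := Finset.univ) (fun a (_ : a ∈ Finset.univ) => (hd i a x).mul (hd j a x))
  exact this

/-- The integrated form of the pointwise inequality on an interval. -/
lemma integrated {P P' : ι → κ → ℝ → ℝ} (hd : ∀ i a x, HasDerivAt (P i a) (P' i a x) x)
    (hc' : ∀ i a, Continuous (P' i a)) {ε δ L : ℝ} (hε : 0 < ε) (hε2 : ε < 1 / 2) (hδ : 0 < δ) (hL : 0 ≤ L)
    (hzero : ∀ i a, P i a L = 0 ∧ P i a (-L) = 0)
    (hGram : ∀ (u : ι → ℝ) (x : ℝ), x ∈ Icc (-L) L →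
      ∫ t in (-L)..x, ∑ a, (∑ i, u i * P i a t) ^ 2 ≤ (1 - 2 * ε) * (u ⬝ᵥ u)) :
    0 ≤ ∫ x in (-L)..L, (trace (fmat P' x * (fmat P' x)ᵀ) -
        π ^ 2 / 4 * trace ((fmat P x * (fmat P x)ᵀ) * (fmat P x * (fmat P x)ᵀ) * (fmat P x * (fmat P x)ᵀ))
        + δ * trace (fmat P x * (fmat P x)ᵀ) ^ 3) := by
  obtain ⟨d, a, hK⟩ := exists_poly_two ε δ hε hε2 hδ
  have hPc : ∀ i a, Continuous (P i a) := fun i a =>
    continuous_iff_continuousAt.2 fun x => (hd i a x).continuousAt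
  set F : ℝ → ℝ := fun t => Bp a d (GG ε L P t) (fmat P t * (fmat P t)ᵀ) with hF
  set F' : ℝ → ℝ := fun x => DBp a d (GG ε L P x) (fmat P x * (fmat P x)ᵀ)
    (fmat P' x * (fmat P x)ᵀ + fmat P x * (fmat P' x)ᵀ) with hF'
  have hderiv : ∀ x, HasDerivAt F (F' x) x := by
    intro x
    exact hasDerivAt_Bp a d (GG ε L P) (fun t => fmat P t * (fmat P t)ᵀ)
      (fun t => fmat P' t * (fmat P t)ᵀ + fmat P t * (fmat P' t)ᵀ) x (R_deriv hd x)
      (GG_deriv hPc ε L x)
  have hend : ∀ y, (∀ i a, P i a y = 0) → F y = 0 := by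
    intro y hy
    have h0 : fmat P y = 0 := by
      ext i a
      simp [fmat_apply, hy]
    simp only [hF, Bp, Bn, h0]
    simp
  have hcm : Continuous fun x => (fmat P x : Matrix ι κ ℝ) := by
    apply continuous_matrix
    intro i a
    exact hPc i a
  have hcm' : Continuous fun x => (fmat P' x : Matrix ι κ ℝ) := by
    apply continuous_matrix
    intro i a
    exact hc' i a
  have hφ : Continuous fun x => (trace (fmat P' x * (fmat P' x)ᵀ) -
        π ^ 2 / 4 * trace ((fmat P x * (fmat P x)ᵀ) * (fmat P x * (fmat P x)ᵀ) * (fmat P x * (fmat P x)ᵀ))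
        + δ * trace (fmat P x * (fmat P x)ᵀ) ^ 3) := by
    have h1 : Continuous fun x => (fmat P x * (fmat P x)ᵀ : Matrix ι ι ℝ) :=
      hcm.matrix_mul hcm.matrix_transpose
    have h2 : Continuous fun x => (fmat P' x * (fmat P' x)ᵀ : Matrix ι ι ℝ) :=
      hcm'.matrix_mul hcm'.matrix_transpose
    exact ((h2.matrix_trace).sub (((h1.matrix_mul h1).matrix_mul h1).matrix_trace.const_mul _)).add
      ((h1.matrix_trace.pow 3).const_mul _)
  have hmain := intervalIntegral.sub_le_integral_of_hasDeriv_right_of_le (a := -L) (b := L) (g := F) (g' := F')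
    (φ := fun x => (trace (fmat P' x * (fmat P' x)ᵀ) -
        π ^ 2 / 4 * trace ((fmat P x * (fmat P x)ᵀ) * (fmat P x * (fmat P x)ᵀ) * (fmat P x * (fmat P x)ᵀ))
        + δ * trace (fmat P x * (fmat P x)ᵀ) ^ 3))
    (by linarith) (fun x _ => (hderiv x).continuousAt.continuousWithinAt)
    (fun x _ => (hderiv x).hasDerivWithinAt) (hφ.integrableOn_Icc) ?_
  · rw [hend L (fun i a => (hzero i a).1), hend (-L) (fun i a => (hzero i a).2), sub_zero] at hmain
    exact hmain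
  · intro x hx
    have hx' : x ∈ Icc (-L) L := Ioo_subset_Icc_self hx
    have hnn : ∀ u : ι → ℝ, 0 ≤ ∫ t in (-L)..x, ∑ a, (∑ i, u i * P i a t) ^ 2 := by
      intro u
      apply intervalIntegral.integral_nonneg hx'.1
      intro t _
      exact Finset.sum_nonneg fun a _ => sq_nonneg _
    have huu : ∀ u : ι → ℝ, 0 ≤ u ⬝ᵥ u := by
      intro u
      simp only [dotProduct]
      exact Finset.sum_nonneg fun i _ => mul_self_nonneg _
    apply DBp_le a d ε δ hε hε2 hK (GG ε L P x) (GG_symm ε L P x)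
    · intro u
      rw [GG_quad hPc]
      linarith [hnn u]
    · intro u
      rw [GG_quad hPc]
      have := hGram u x hx'
      nlinarith

omit [Fintype ι] [DecidableEq ι] [Fintype κ] in
lemma exists_L [Fintype ι] [Fintype κ] {Ψ : ι → κ → ℝ → ℝ} (hcs : ∀ i a, HasCompactSupport (Ψ i a)) :
    ∃ L : ℝ, 0 < L ∧ (∀ i a x, L ≤ |x| → Ψ i a x = 0) ∧ (∀ i a x, L ≤ |x| → deriv (Ψ i a) x = 0) := by
  have hK : IsCompact (⋃ i, ⋃ a, tsupport (Ψ i a)) :=
    isCompact_iUnion fun i => isCompact_iUnion fun a => hcs i a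
  obtain ⟨r, hr⟩ := hK.isBounded.subset_closedBall (0 : ℝ)
  have key : ∀ i a x, |r| + 1 ≤ |x| → x ∉ tsupport (Ψ i a) := by
    intro i a x hx hxs
    have h1 := hr (mem_iUnion.2 ⟨i, mem_iUnion.2 ⟨a, hxs⟩⟩)
    rw [Metric.mem_closedBall, dist_zero_right, Real.norm_eq_abs] at h1
    have := le_abs_self r
    linarith
  refine ⟨|r| + 1, by positivity, ?_, ?_⟩
  · intro i a x hx
    exact image_eq_zero_of_notMem_tsupport (key i a x hx)
  · intro i a x hx
    exact image_eq_zero_of_notMem_tsupport fun h => key i a x hx (tsupport_deriv_subset h)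

lemma integrable_of_vanish {f : ℝ → ℝ} (hf : Continuous f) {L : ℝ} (h : ∀ x, L ≤ |x| → f x = 0) :
    Integrable f := by
  apply hf.integrable_of_hasCompactSupport
  apply HasCompactSupport.intro (isCompact_Icc (a := -L) (b := L))
  intro x hx
  apply h
  by_contra hlt
  push Not at hlt
  exact hx ⟨by linarith [(abs_lt.1 hlt).1], by linarith [(abs_lt.1 hlt).2]⟩

lemma interval_eq_full {f : ℝ → ℝ} {L : ℝ} (hL : 0 < L) (h : ∀ x, L ≤ |x| → f x = 0) :
    ∫ x in (-L)..L, f x = ∫ x, f x := by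
  rw [intervalIntegral.integral_of_le (by linarith)]
  apply setIntegral_eq_integral_of_forall_compl_eq_zero
  intro x hx
  apply h
  by_contra hlt
  push Not at hlt
  exact hx ⟨by linarith [(abs_lt.1 hlt).1], by linarith [(abs_lt.1 hlt).2]⟩

lemma le_of_forall_delta {x y z : ℝ} (h : ∀ δ : ℝ, 0 < δ → x ≤ y + δ * z) : x ≤ y := by
  by_contra hlt
  push Not at hlt
  have hz : 0 < |z| + 1 := by positivity
  have hd : 0 < (x - y) / (2 * (|z| + 1)) := by
    apply div_pos
    · linarith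
    · linarith
  have h1 := h _ hd
  have h2 : (x - y) / (2 * (|z| + 1)) * z ≤ (x - y) / 2 := by
    have h3 : (x - y) / (2 * (|z| + 1)) * z ≤ (x - y) / (2 * (|z| + 1)) * (|z| + 1) := by
      apply mul_le_mul_of_nonneg_left _ hd.le
      linarith [le_abs_self z]
    have h4 : (x - y) / (2 * (|z| + 1)) * (|z| + 1) = (x - y) / 2 := by
      field_simp
    linarith
  linarith

/-- One approximate inequality, for fixed `ε` and `δ`. -/
lemma core_step (Ψ : ι → κ → ℝ → ℝ)
    (hsm : ∀ i a, ContDiff ℝ 1 (Ψ i a)) (hcs : ∀ i a, HasCompactSupport (Ψ i a))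
    (hGram : ∀ u : ι → ℝ, ∑ a, ∫ x, (∑ i, u i * Ψ i a x) ^ 2 ≤ ∑ i, u i ^ 2)
    {ε δ : ℝ} (hε : 0 < ε) (hε2 : ε < 1 / 2) (hδ : 0 < δ) :
    π ^ 2 / 4 * ((1 - 2 * ε) ^ 3 * ∫ x, trace ((fmat Ψ x * (fmat Ψ x)ᵀ) * (fmat Ψ x * (fmat Ψ x)ᵀ) *
        (fmat Ψ x * (fmat Ψ x)ᵀ))) ≤
      (1 - 2 * ε) * (∑ i, ∑ a, ∫ x, deriv (Ψ i a) x ^ 2) +
        δ * ((1 - 2 * ε) ^ 3 * ∫ x, trace (fmat Ψ x * (fmat Ψ x)ᵀ) ^ 3) := by
  obtain ⟨L, hL, hLv, hLd⟩ := exists_L hcs
  set c : ℝ := 1 - 2 * ε with hc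
  have hc0 : 0 < c := by rw [hc]; linarith
  set s : ℝ := √c with hs
  have hs2 : s * s = c := Real.mul_self_sqrt hc0.le
  have hΨc : ∀ i a, Continuous (Ψ i a) := fun i a => (hsm i a).continuous
  have hdc : ∀ i a, Continuous (deriv (Ψ i a)) := fun i a =>
    (hsm i a).continuous_deriv (le_refl _)
  have hd : ∀ i a x, HasDerivAt (Ψ i a) (deriv (Ψ i a) x) x := fun i a x =>
    ((hsm i a).differentiable (by norm_num) x).hasDerivAt
  set P : ι → κ → ℝ → ℝ := fun i a t => s * Ψ i a t with hP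
  set P' : ι → κ → ℝ → ℝ := fun i a t => s * deriv (Ψ i a) t with hP'
  set Ψ' : ι → κ → ℝ → ℝ := fun i a => deriv (Ψ i a) with hΨ'
  have hPm : ∀ x, fmat P x = s • fmat Ψ x := by
    intro x
    ext i a
    simp [fmat_apply, hP]
  have hPm' : ∀ x, fmat P' x = s • fmat Ψ' x := by
    intro x
    ext i a
    simp [fmat_apply, hP', hΨ']
  have hW : ∀ u : ι → ℝ, ∀ x ∈ Icc (-L) L,
      ∫ t in (-L)..x, ∑ a, (∑ i, u i * Ψ i a t) ^ 2 ≤ u ⬝ᵥ u := by
    intro u x hx
    have hWc : Continuous fun t => ∑ a, (∑ i, u i * Ψ i a t) ^ 2 :=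
      continuous_finsetSum _ fun a _ =>
        (continuous_finsetSum _ fun i _ => (hΨc i a).const_mul _).pow 2
    have hWv : ∀ t, L ≤ |t| → ∑ a, (∑ i, u i * Ψ i a t) ^ 2 = 0 := by
      intro t ht
      apply Finset.sum_eq_zero
      intro a _
      have : ∑ i, u i * Ψ i a t = 0 := by
        apply Finset.sum_eq_zero
        intro i _
        rw [hLv i a t ht, mul_zero]
      rw [this]
      norm_num
    have hWi := integrable_of_vanish hWc hWv
    have h1 : ∫ t in (-L)..x, ∑ a, (∑ i, u i * Ψ i a t) ^ 2 ≤ ∫ t, ∑ a, (∑ i, u i * Ψ i a t) ^ 2 := by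
      rw [intervalIntegral.integral_of_le hx.1]
      apply setIntegral_le_integral hWi
      exact Eventually.of_forall fun t => Finset.sum_nonneg fun a _ => sq_nonneg _
    have h2 : ∫ t, ∑ a, (∑ i, u i * Ψ i a t) ^ 2 = ∑ a, ∫ t, (∑ i, u i * Ψ i a t) ^ 2 := by
      rw [integral_finsetSum]
      intro a _
      apply integrable_of_vanish ((continuous_finsetSum _ fun i _ => (hΨc i a).const_mul _).pow 2)
        (L := L)
      intro t ht
      have : ∑ i, u i * Ψ i a t = 0 := by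
        apply Finset.sum_eq_zero
        intro i _
        rw [hLv i a t ht, mul_zero]
      show (∑ i, u i * Ψ i a t) ^ 2 = 0
      rw [this]
      norm_num
    have h3 : u ⬝ᵥ u = ∑ i, u i ^ 2 := by
      simp only [dotProduct, sq]
    rw [h3]
    linarith [hGram u]
  have hint := integrated (P := P) (P' := P') (ε := ε) (δ := δ) (L := L)
    (fun i a x => (hd i a x).const_mul s) (fun i a => (hdc i a).const_mul s) hε hε2 hδ hL.le
    (fun i a => by
      refine ⟨?_, ?_⟩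
      · simp only [hP]
        rw [hLv i a L (by rw [abs_of_pos hL]), mul_zero]
      · simp only [hP]
        rw [hLv i a (-L) (by rw [abs_neg, abs_of_pos hL]), mul_zero])
    (fun u x hx => by
      have h1 : ∀ t, ∑ a, (∑ i, u i * P i a t) ^ 2 = c * ∑ a, (∑ i, u i * Ψ i a t) ^ 2 := by
        intro t
        rw [Finset.mul_sum]
        apply Finset.sum_congr rfl
        intro a _
        have : ∑ i, u i * P i a t = s * ∑ i, u i * Ψ i a t := by
          rw [Finset.mul_sum]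
          apply Finset.sum_congr rfl
          intro i _
          simp only [hP]
          ring
        rw [this, mul_pow, sq s, hs2]
      simp_rw [h1]
      rw [intervalIntegral.integral_const_mul]
      exact mul_le_mul_of_nonneg_left (hW u x hx) hc0.le)
  -- the traces
  set T1 : ℝ → ℝ := fun x => ∑ i, ∑ a, deriv (Ψ i a) x ^ 2 with hT1
  set R : ℝ → Matrix ι ι ℝ := fun x => fmat Ψ x * (fmat Ψ x)ᵀ with hR
  set T2 : ℝ → ℝ := fun x => trace (R x * R x * R x) with hT2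
  set T3 : ℝ → ℝ := fun x => trace (R x) ^ 3 with hT3
  have hRs : ∀ x, fmat P x * (fmat P x)ᵀ = c • R x := by
    intro x
    rw [hPm, Matrix.transpose_smul, Matrix.smul_mul, Matrix.mul_smul, smul_smul, hs2]
  have hval : ∀ x, (trace (fmat P' x * (fmat P' x)ᵀ) -
        π ^ 2 / 4 * trace ((fmat P x * (fmat P x)ᵀ) * (fmat P x * (fmat P x)ᵀ) * (fmat P x * (fmat P x)ᵀ))
        + δ * trace (fmat P x * (fmat P x)ᵀ) ^ 3) =
      c * T1 x - π ^ 2 / 4 * (c ^ 3 * T2 x) + δ * (c ^ 3 * T3 x) := by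
    intro x
    rw [hRs]
    have h1 : trace (fmat P' x * (fmat P' x)ᵀ) = c * T1 x := by
      rw [hPm', Matrix.transpose_smul, Matrix.smul_mul, Matrix.mul_smul, smul_smul, hs2,
        Matrix.trace_smul, smul_eq_mul]
      congr 1
      simp only [Matrix.trace, Matrix.diag, mul_tr_apply, fmat_apply, hT1, hΨ', sq]
    have h2 : trace (c • R x * (c • R x) * (c • R x)) = c ^ 3 * T2 x := by
      have e : c • R x * (c • R x) * (c • R x) = (c ^ 3) • (R x * R x * R x) := by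
        simp only [Matrix.smul_mul, Matrix.mul_smul, smul_smul]
        congr 1
        ring
      rw [e, Matrix.trace_smul, smul_eq_mul]
    have h3 : trace (c • R x) ^ 3 = c ^ 3 * T3 x := by
      rw [Matrix.trace_smul, smul_eq_mul, mul_pow]
    rw [h1, h2, h3]
  have hRv : ∀ x, L ≤ |x| → R x = 0 := by
    intro x hx
    have h0 : fmat Ψ x = 0 := by
      ext i a
      simp [fmat_apply, hLv i a x hx]
    simp only [hR, h0]
    simp
  have hT1v : ∀ x, L ≤ |x| → T1 x = 0 := by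
    intro x hx
    apply Finset.sum_eq_zero
    intro i _
    apply Finset.sum_eq_zero
    intro a _
    rw [hLd i a x hx]
    norm_num
  have hT2v : ∀ x, L ≤ |x| → T2 x = 0 := by
    intro x hx
    simp [hT2, hRv x hx]
  have hT3v : ∀ x, L ≤ |x| → T3 x = 0 := by
    intro x hx
    simp [hT3, hRv x hx]
  have hcm : Continuous fun x => (fmat Ψ x : Matrix ι κ ℝ) := by
    apply continuous_matrix
    intro i a
    exact hΨc i a
  have hRc : Continuous R := hcm.matrix_mul hcm.matrix_transpose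
  have hT1c : Continuous T1 :=
    continuous_finsetSum _ fun i _ => continuous_finsetSum _ fun a _ => (hdc i a).pow 2
  have hT2c : Continuous T2 := ((hRc.matrix_mul hRc).matrix_mul hRc).matrix_trace
  have hT3c : Continuous T3 := hRc.matrix_trace.pow 3
  have hT1i := integrable_of_vanish hT1c hT1v
  have hT2i := integrable_of_vanish hT2c hT2v
  have hT3i := integrable_of_vanish hT3c hT3v
  have hfull : ∫ x in (-L)..L, (c * T1 x - π ^ 2 / 4 * (c ^ 3 * T2 x) + δ * (c ^ 3 * T3 x)) =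
      ∫ x, (c * T1 x - π ^ 2 / 4 * (c ^ 3 * T2 x) + δ * (c ^ 3 * T3 x)) := by
    apply interval_eq_full hL
    intro x hx
    rw [hT1v x hx, hT2v x hx, hT3v x hx]
    ring
  have hsplit : ∫ x, (c * T1 x - π ^ 2 / 4 * (c ^ 3 * T2 x) + δ * (c ^ 3 * T3 x)) =
      c * (∫ x, T1 x) - π ^ 2 / 4 * (c ^ 3 * ∫ x, T2 x) + δ * (c ^ 3 * ∫ x, T3 x) := by
    have i12 : Integrable (fun x => c * T1 x - π ^ 2 / 4 * (c ^ 3 * T2 x)) :=
      (hT1i.const_mul c).sub ((hT2i.const_mul _).const_mul _)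
    have i3 : Integrable (fun x => δ * (c ^ 3 * T3 x)) := (hT3i.const_mul _).const_mul _
    have i1 : Integrable (fun x => c * T1 x) := hT1i.const_mul c
    have i2 : Integrable (fun x => π ^ 2 / 4 * (c ^ 3 * T2 x)) := (hT2i.const_mul _).const_mul _
    rw [integral_add i12 i3, integral_sub i1 i2, integral_const_mul, integral_const_mul,
      integral_const_mul, integral_const_mul, integral_const_mul]
  have hT1int : ∫ x, T1 x = ∑ i, ∑ a, ∫ x, deriv (Ψ i a) x ^ 2 := by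
    simp only [hT1]
    rw [integral_finsetSum]
    · apply Finset.sum_congr rfl
      intro i _
      rw [integral_finsetSum]
      intro a _
      apply integrable_of_vanish ((hdc i a).pow 2) (L := L)
      intro t ht
      show deriv (Ψ i a) t ^ 2 = 0
      rw [hLd i a t ht]
      norm_num
    · intro i _
      apply integrable_of_vanish (continuous_finsetSum _ fun a _ => (hdc i a).pow 2) (L := L)
      intro t ht
      apply Finset.sum_eq_zero
      intro a _
      show deriv (Ψ i a) t ^ 2 = 0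
      rw [hLd i a t ht]
      norm_num
  simp_rw [hval] at hint
  rw [hfull, hsplit, hT1int] at hint
  have e2 : (∫ x, trace ((fmat Ψ x * (fmat Ψ x)ᵀ) * (fmat Ψ x * (fmat Ψ x)ᵀ) * (fmat Ψ x * (fmat Ψ x)ᵀ))) =
      ∫ x, T2 x := rfl
  have e3 : (∫ x, trace (fmat Ψ x * (fmat Ψ x)ᵀ) ^ 3) = ∫ x, T3 x := rfl
  rw [e2, e3]
  linarith

/-- The sharp kinetic inequality for a smooth compactly supported matrix valued system with Gram
matrix at most one. -/
theorem core_matrix (Ψ : ι → κ → ℝ → ℝ)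
    (hsm : ∀ i a, ContDiff ℝ 1 (Ψ i a)) (hcs : ∀ i a, HasCompactSupport (Ψ i a))
    (hGram : ∀ u : ι → ℝ, ∑ a, ∫ x, (∑ i, u i * Ψ i a x) ^ 2 ≤ ∑ i, u i ^ 2) :
    π ^ 2 / 4 * ∫ x, trace ((Matrix.of fun i a => Ψ i a x) * (Matrix.of fun i a => Ψ i a x)ᵀ *
        ((Matrix.of fun i a => Ψ i a x) * (Matrix.of fun i a => Ψ i a x)ᵀ) *
        ((Matrix.of fun i a => Ψ i a x) * (Matrix.of fun i a => Ψ i a x)ᵀ)) ≤
      ∑ i, ∑ a, ∫ x, deriv (Ψ i a) x ^ 2 := by
  set I : ℝ := ∫ x, trace ((fmat Ψ x * (fmat Ψ x)ᵀ) * (fmat Ψ x * (fmat Ψ x)ᵀ) *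
        (fmat Ψ x * (fmat Ψ x)ᵀ)) with hI
  set K : ℝ := ∑ i, ∑ a, ∫ x, deriv (Ψ i a) x ^ 2 with hK
  have h1 : ∀ ε : ℝ, 0 < ε → ε < 1 / 2 → π ^ 2 / 4 * ((1 - 2 * ε) ^ 2 * I) ≤ K := by
    intro ε hε hε2
    have hc0 : 0 < 1 - 2 * ε := by linarith
    have h2 : π ^ 2 / 4 * ((1 - 2 * ε) ^ 3 * I) ≤ (1 - 2 * ε) * K := by
      apply le_of_forall_delta (z := (1 - 2 * ε) ^ 3 * ∫ x, trace (fmat Ψ x * (fmat Ψ x)ᵀ) ^ 3)
      intro δ hδ
      exact core_step Ψ hsm hcs hGram hε hε2 hδ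
    have h3 : (1 - 2 * ε) * (π ^ 2 / 4 * ((1 - 2 * ε) ^ 2 * I)) ≤ (1 - 2 * ε) * K := by
      calc (1 - 2 * ε) * (π ^ 2 / 4 * ((1 - 2 * ε) ^ 2 * I))
          = π ^ 2 / 4 * ((1 - 2 * ε) ^ 3 * I) := by ring
        _ ≤ _ := h2
    exact le_of_mul_le_mul_left h3 hc0
  have hlim : Tendsto (fun ε : ℝ => π ^ 2 / 4 * ((1 - 2 * ε) ^ 2 * I)) (𝓝[>] 0)
      (𝓝 (π ^ 2 / 4 * ((1 - 2 * 0) ^ 2 * I))) := by
    apply Tendsto.mono_left _ nhdsWithin_le_nhds
    apply Continuous.tendsto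
    fun_prop
  have hev : ∀ᶠ ε : ℝ in 𝓝[>] 0, π ^ 2 / 4 * ((1 - 2 * ε) ^ 2 * I) ≤ K := by
    filter_upwards [Ioo_mem_nhdsGT (by norm_num : (0 : ℝ) < 1 / 2)] with ε hε
    exact h1 ε hε.1 hε.2
  have h4 := le_of_tendsto hlim hev
  have h5 : π ^ 2 / 4 * ((1 - 2 * 0) ^ 2 * I) = π ^ 2 / 4 * I := by ring
  rw [h5] at h4
  exact h4

end Vale.Agent.P371m
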