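import Vale.Agent.P371m.Core
import Vale.Agent.Lib.P371.Kin5

/-!
Doubling: an orthonormal family of complex vector valued functions gives a real system of twice
the size, with the same density matrix after realification.
-/

namespace Vale.Agent.P371m
open Matrix BigOperators Real MeasureTheory
open scoped ContDiff

variable {ι τ : Type*} [Fintype ι] [DecidableEq ι] [Fintype τ] [DecidableEq τ]

/-- the real system of the doubling: the row `(j, false)` is `ψ j`, the row `(j, true)` is `i ψ j`. -/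
noncomputable def dblΨ (ψ : ι → ℝ → τ → ℂ) : ι × Bool → τ × Bool → ℝ → ℝ
  | (j, false), (α, false), x => (ψ j x α).re
  | (j, false), (α, true), x => (ψ j x α).im
  | (j, true), (α, false), x => -(ψ j x α).im
  | (j, true), (α, true), x => (ψ j x α).re

/-- realification of a complex matrix -/
noncomputable def realify (M : Matrix τ τ ℂ) : Matrix (τ × Bool) (τ × Bool) ℝ :=
  Matrix.of fun p q =>
    match p.2, q.2 with
    | false, false => (M p.1 q.1).re
    | false, true => -(M p.1 q.1).im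
    | true, false => (M p.1 q.1).im
    | true, true => (M p.1 q.1).re

omit [DecidableEq τ] in
lemma realify_mul (M N : Matrix τ τ ℂ) : realify (M * N) = realify M * realify N := by
  ext ⟨α, s⟩ ⟨β, t⟩
  cases s <;> cases t <;>
    simp only [realify, Matrix.mul_apply, Matrix.of_apply, Fintype.sum_prod_type, Fintype.sum_bool,
      Complex.re_sum, Complex.im_sum, Complex.mul_re, Complex.mul_im,
      ← Finset.sum_neg_distrib] <;>
    (apply Finset.sum_congr rfl; intro γ _; ring)

omit [DecidableEq τ] in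
lemma trace_realify (M : Matrix τ τ ℂ) : trace (realify M) = 2 * (trace M).re := by
  simp only [Matrix.trace, realify, Matrix.diag_apply, Matrix.of_apply, Fintype.sum_prod_type,
    Fintype.sum_bool, Complex.re_sum, Finset.mul_sum]
  apply Finset.sum_congr rfl
  intro γ _
  ring

omit [DecidableEq ι] [DecidableEq τ] in
lemma dbl_gram_eq (ψ : ι → ℝ → τ → ℂ) (x : ℝ) :
    (Matrix.of fun i a => dblΨ ψ i a x)ᵀ * (Matrix.of fun i a => dblΨ ψ i a x) =
      realify (Vale.Agent.P371.rhoM ψ x) := by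
  ext ⟨α, s⟩ ⟨β, t⟩
  cases s <;> cases t <;>
    simp only [realify, Vale.Agent.P371.rhoM, Matrix.mul_apply, Matrix.of_apply, Matrix.transpose_apply,
      Fintype.sum_prod_type, Fintype.sum_bool, Complex.re_sum, Complex.im_sum, Complex.mul_re,
      Complex.mul_im, dblΨ, Complex.star_def, Complex.conj_re, Complex.conj_im,
      ← Finset.sum_neg_distrib] <;>
    (apply Finset.sum_congr rfl; intro γ _; ring)

omit [DecidableEq ι] [DecidableEq τ] in
lemma dbl_trace (ψ : ι → ℝ → τ → ℂ) (x : ℝ) :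
    trace ((Matrix.of fun i a => dblΨ ψ i a x) * (Matrix.of fun i a => dblΨ ψ i a x)ᵀ *
        ((Matrix.of fun i a => dblΨ ψ i a x) * (Matrix.of fun i a => dblΨ ψ i a x)ᵀ) *
        ((Matrix.of fun i a => dblΨ ψ i a x) * (Matrix.of fun i a => dblΨ ψ i a x)ᵀ)) =
      2 * ((Vale.Agent.P371.rhoM ψ x * Vale.Agent.P371.rhoM ψ x * Vale.Agent.P371.rhoM ψ x).trace).re := by
  set b : Matrix (ι × Bool) (τ × Bool) ℝ := Matrix.of fun i a => dblΨ ψ i a x with hb
  have h1 : trace (b * bᵀ * (b * bᵀ) * (b * bᵀ)) = trace (bᵀ * b * (bᵀ * b) * (bᵀ * b)) := by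
    simp only [Matrix.mul_assoc]
    rw [Matrix.trace_mul_comm]
    simp only [Matrix.mul_assoc]
  rw [h1, dbl_gram_eq, ← realify_mul, ← realify_mul, trace_realify]

section analysis

variable {ψ : ι → ℝ → τ → ℂ}

lemma dbl_smooth (hsm : ∀ n, ContDiff ℝ ∞ (ψ n)) (i : ι × Bool) (a : τ × Bool) :
    ContDiff ℝ 1 (dblΨ ψ i a) := by
  obtain ⟨j, s⟩ := i
  obtain ⟨α, t⟩ := a
  have h : ContDiff ℝ 1 (fun y => ψ j y α) :=
    (Vale.Agent.P371.comp_smooth hsm j α).of_le (by exact_mod_cast le_top)
  have hre : ContDiff ℝ 1 (fun y => (ψ j y α).re) := Complex.reCLM.contDiff.comp h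
  have him : ContDiff ℝ 1 (fun y => (ψ j y α).im) := Complex.imCLM.contDiff.comp h
  cases s <;> cases t
  · exact hre
  · exact him
  · exact him.neg
  · exact hre

lemma dbl_support (hcs : ∀ n, HasCompactSupport (ψ n)) (i : ι × Bool) (a : τ × Bool) :
    HasCompactSupport (dblΨ ψ i a) := by
  obtain ⟨j, s⟩ := i
  obtain ⟨α, t⟩ := a
  have h := Vale.Agent.P371.comp_support hcs j α
  have hre : HasCompactSupport (fun y => (ψ j y α).re) :=
    h.comp_left (g := fun z : ℂ => z.re) Complex.zero_re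
  have him : HasCompactSupport (fun y => (ψ j y α).im) :=
    h.comp_left (g := fun z : ℂ => z.im) Complex.zero_im
  have him' : HasCompactSupport (fun y => -(ψ j y α).im) :=
    h.comp_left (g := fun z : ℂ => -z.im) (by simp)
  cases s <;> cases t
  · exact hre
  · exact him
  · exact him'
  · exact hre

/-- integrability of the square of a continuous real function of compact support -/
lemma integrable_sq_of_cs {f : ℝ → ℝ} (hc : Continuous f) (hs : HasCompactSupport f) :
    Integrable (fun y => f y ^ 2) := by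
  have h2 : HasCompactSupport (fun y => f y ^ 2) :=
    hs.comp_left (g := fun z : ℝ => z ^ 2) (by simp)
  exact (hc.pow 2).integrable_of_hasCompactSupport h2

lemma dbl_gram (hsm : ∀ n, ContDiff ℝ ∞ (ψ n)) (hcs : ∀ n, HasCompactSupport (ψ n))
    (hON : ∀ j k, ∫ x, star (ψ j x) ⬝ᵥ ψ k x = if j = k then 1 else 0) (u : ι × Bool → ℝ) :
    ∑ a, ∫ x, (∑ i, u i * dblΨ ψ i a x) ^ 2 ≤ ∑ i, u i ^ 2 := by
  set d : ι → ℂ := fun j => ⟨u (j, false), u (j, true)⟩ with hd
  have hcont : ∀ n α, Continuous (fun y => ψ n y α) :=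
    fun n α => (Vale.Agent.P371.comp_smooth hsm n α).continuous
  have hsupp : ∀ n α, HasCompactSupport (fun y => ψ n y α) :=
    fun n α => Vale.Agent.P371.comp_support hcs n α
  obtain ⟨hI, hval⟩ := Vale.Agent.P371.integral_comb_sq hcont hsupp hON d
  have hre : ∀ α x, (∑ i, u i * dblΨ ψ i (α, false) x) = (∑ k, d k * ψ k x α).re := by
    intro α x
    simp only [Fintype.sum_prod_type, Fintype.sum_bool, Complex.re_sum, Complex.mul_re, dblΨ, hd]
    apply Finset.sum_congr rfl
    intro k _
    ring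
  have him : ∀ α x, (∑ i, u i * dblΨ ψ i (α, true) x) = (∑ k, d k * ψ k x α).im := by
    intro α x
    simp only [Fintype.sum_prod_type, Fintype.sum_bool, Complex.im_sum, Complex.mul_im, dblΨ, hd]
    apply Finset.sum_congr rfl
    intro k _
    ring
  have hf : ∀ α, Continuous (fun y => ∑ k, d k * ψ k y α) := fun α =>
    continuous_finsetSum _ (fun k _ => continuous_const.mul (hcont k α))
  have hfs : ∀ α, HasCompactSupport (fun y => ∑ k, d k * ψ k y α) := fun α =>
    Vale.Agent.P371.hcs_finsum _ (fun k y => d k * ψ k y α) (fun k _ => (hsupp k α).mul_left)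
  have hIre : ∀ α, Integrable (fun y => ((∑ k, d k * ψ k y α).re) ^ 2) := fun α =>
    integrable_sq_of_cs (Complex.continuous_re.comp (hf α))
      ((hfs α).comp_left (g := fun z : ℂ => z.re) Complex.zero_re)
  have hIim : ∀ α, Integrable (fun y => ((∑ k, d k * ψ k y α).im) ^ 2) := fun α =>
    integrable_sq_of_cs (Complex.continuous_im.comp (hf α))
      ((hfs α).comp_left (g := fun z : ℂ => z.im) Complex.zero_im)
  have hnorm : ∀ z : ℂ, ‖z‖ ^ 2 = z.re ^ 2 + z.im ^ 2 := by
    intro z
    rw [Complex.sq_norm, Complex.normSq_apply]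
    ring
  have hL : ∑ a, ∫ x, (∑ i, u i * dblΨ ψ i a x) ^ 2 =
      ∫ y, ∑ α, ‖∑ k, d k * ψ k y α‖ ^ 2 := by
    rw [Fintype.sum_prod_type, integral_finsetSum]
    · apply Finset.sum_congr rfl
      intro α _
      rw [Fintype.sum_bool]
      simp only [hre, him]
      rw [← integral_add (hIim α) (hIre α)]
      apply integral_congr_ae
      filter_upwards with y
      rw [hnorm]
      ring
    · intro α _
      have : (fun y => ‖∑ k, d k * ψ k y α‖ ^ 2) =
          fun y => ((∑ k, d k * ψ k y α).re) ^ 2 + ((∑ k, d k * ψ k y α).im) ^ 2 := by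
        funext y
        exact hnorm _
      rw [this]
      exact (hIre α).add (hIim α)
  rw [hL, hval]
  apply le_of_eq
  rw [Fintype.sum_prod_type]
  apply Finset.sum_congr rfl
  intro k _
  rw [Fintype.sum_bool, hnorm]
  simp only [hd]
  ring

/-- the derivative of the real and imaginary parts -/
lemma deriv_re_im (hsm : ∀ n, ContDiff ℝ ∞ (ψ n)) (n : ι) (α : τ) (y : ℝ) :
    deriv (fun y => (ψ n y α).re) y = (deriv (fun y => ψ n y α) y).re ∧
    deriv (fun y => (ψ n y α).im) y = (deriv (fun y => ψ n y α) y).im := by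
  have h : HasDerivAt (fun y => ψ n y α) (deriv (fun y => ψ n y α) y) y :=
    ((Vale.Agent.P371.comp_smooth hsm n α).differentiable (by simp) y).hasDerivAt
  have h1 : HasDerivAt (fun y => (ψ n y α).re) ((deriv (fun y => ψ n y α) y).re) y :=
    Complex.reCLM.hasFDerivAt.comp_hasDerivAt y h
  have h2 : HasDerivAt (fun y => (ψ n y α).im) ((deriv (fun y => ψ n y α) y).im) y :=
    Complex.imCLM.hasFDerivAt.comp_hasDerivAt y h
  exact ⟨h1.deriv, h2.deriv⟩

lemma deriv_pair (hsm : ∀ n, ContDiff ℝ ∞ (ψ n)) (hcs : ∀ n, HasCompactSupport (ψ n)) (n : ι) (α : τ) :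
    Integrable (fun y => ((deriv (fun y => ψ n y α) y).re) ^ 2) ∧
    Integrable (fun y => ((deriv (fun y => ψ n y α) y).im) ^ 2) := by
  have hc : Continuous (deriv (fun y => ψ n y α)) :=
    (Vale.Agent.P371.comp_smooth hsm n α).continuous_deriv (by simp)
  have hs : HasCompactSupport (deriv (fun y => ψ n y α)) :=
    (Vale.Agent.P371.comp_support hcs n α).deriv
  exact ⟨integrable_sq_of_cs (Complex.continuous_re.comp hc)
      (hs.comp_left (g := fun z : ℂ => z.re) Complex.zero_re),
    integrable_sq_of_cs (Complex.continuous_im.comp hc)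
      (hs.comp_left (g := fun z : ℂ => z.im) Complex.zero_im)⟩

lemma dbl_kinetic (hsm : ∀ n, ContDiff ℝ ∞ (ψ n)) (hcs : ∀ n, HasCompactSupport (ψ n)) :
    ∑ i, ∑ a, ∫ x, deriv (dblΨ ψ i a) x ^ 2 =
      2 * ∑ n, ∑ α, ∫ y, ‖deriv (fun y => ψ n y α) y‖ ^ 2 := by
  have hnorm : ∀ z : ℂ, ‖z‖ ^ 2 = z.re ^ 2 + z.im ^ 2 := by
    intro z
    rw [Complex.sq_norm, Complex.normSq_apply]
    ring
  have hadd : ∀ n α, ∫ y, ‖deriv (fun y => ψ n y α) y‖ ^ 2 =
      (∫ y, ((deriv (fun y => ψ n y α) y).re) ^ 2) + ∫ y, ((deriv (fun y => ψ n y α) y).im) ^ 2 := by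
    intro n α
    obtain ⟨h1, h2⟩ := deriv_pair hsm hcs n α
    rw [← integral_add h1 h2]
    apply integral_congr_ae
    filter_upwards with y
    exact hnorm _
  have e00 : ∀ n α, ∫ x, deriv (dblΨ ψ (n, false) (α, false)) x ^ 2 =
      ∫ y, ((deriv (fun y => ψ n y α) y).re) ^ 2 := by
    intro n α
    apply integral_congr_ae
    filter_upwards with y
    have : dblΨ ψ (n, false) (α, false) = fun y => (ψ n y α).re := by
      funext x
      rfl
    rw [this, (deriv_re_im hsm n α y).1]
  have e01 : ∀ n α, ∫ x, deriv (dblΨ ψ (n, false) (α, true)) x ^ 2 =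
      ∫ y, ((deriv (fun y => ψ n y α) y).im) ^ 2 := by
    intro n α
    apply integral_congr_ae
    filter_upwards with y
    have : dblΨ ψ (n, false) (α, true) = fun y => (ψ n y α).im := by
      funext x
      rfl
    rw [this, (deriv_re_im hsm n α y).2]
  have e10 : ∀ n α, ∫ x, deriv (dblΨ ψ (n, true) (α, false)) x ^ 2 =
      ∫ y, ((deriv (fun y => ψ n y α) y).im) ^ 2 := by
    intro n α
    apply integral_congr_ae
    filter_upwards with y
    have : dblΨ ψ (n, true) (α, false) = fun y => -(ψ n y α).im := by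
      funext x
      rfl
    rw [this, deriv.fun_neg, (deriv_re_im hsm n α y).2]
    ring
  have e11 : ∀ n α, ∫ x, deriv (dblΨ ψ (n, true) (α, true)) x ^ 2 =
      ∫ y, ((deriv (fun y => ψ n y α) y).re) ^ 2 := by
    intro n α
    apply integral_congr_ae
    filter_upwards with y
    have : dblΨ ψ (n, true) (α, true) = fun y => (ψ n y α).re := by
      funext x
      rfl
    rw [this, (deriv_re_im hsm n α y).1]
  rw [Fintype.sum_prod_type, Finset.mul_sum]
  apply Finset.sum_congr rfl
  intro n _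
  rw [Fintype.sum_bool]
  simp only [Fintype.sum_prod_type, Fintype.sum_bool, e00, e01, e10, e11, hadd, Finset.mul_sum,
    ← Finset.sum_add_distrib]
  apply Finset.sum_congr rfl
  intro α _
  ring

/-- The sharp kinetic inequality for complex vector valued orthonormal families, from the real
matrix inequality applied to the doubled system. -/
theorem kinetic_of_core
    (hcore : π ^ 2 / 4 * ∫ x, trace ((Matrix.of fun i a => dblΨ ψ i a x) * (Matrix.of fun i a => dblΨ ψ i a x)ᵀ *
        ((Matrix.of fun i a => dblΨ ψ i a x) * (Matrix.of fun i a => dblΨ ψ i a x)ᵀ) *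
        ((Matrix.of fun i a => dblΨ ψ i a x) * (Matrix.of fun i a => dblΨ ψ i a x)ᵀ)) ≤
      ∑ i, ∑ a, ∫ x, deriv (dblΨ ψ i a) x ^ 2)
    (hsm : ∀ n, ContDiff ℝ ∞ (ψ n)) (hcs : ∀ n, HasCompactSupport (ψ n)) :
    π ^ 2 / 4 * ∫ x, ((Vale.Agent.P371.rhoM ψ x * Vale.Agent.P371.rhoM ψ x *
        Vale.Agent.P371.rhoM ψ x).trace).re ≤
      ∑ n, ∑ α, ∫ y, ‖deriv (fun y => ψ n y α) y‖ ^ 2 := by
  simp only [dbl_trace] at hcore
  rw [integral_const_mul, dbl_kinetic hsm hcs] at hcore
  linarith

/-- **The sharp kinetic inequality** for complex vector valued orthonormal families: for every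
number of components the constant is `π² / 4`. -/
theorem kinetic_sharp (hsm : ∀ n, ContDiff ℝ ∞ (ψ n)) (hcs : ∀ n, HasCompactSupport (ψ n))
    (hON : ∀ j k, ∫ x, star (ψ j x) ⬝ᵥ ψ k x = if j = k then 1 else 0) :
    π ^ 2 / 4 * ∫ x, ((Vale.Agent.P371.rhoM ψ x * Vale.Agent.P371.rhoM ψ x *
        Vale.Agent.P371.rhoM ψ x).trace).re ≤
      ∑ n, ∑ α, ∫ y, ‖deriv (fun y => ψ n y α) y‖ ^ 2 :=
  kinetic_of_core (core_matrix (dblΨ ψ) (dbl_smooth hsm) (dbl_support hcs) (dbl_gram hsm hcs hON))
    hsm hcs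

end analysis

end Vale.Agent.P371m
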