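import Vale.Agent.Lib.P371.Kin6

/-!
From a sharp kinetic energy inequality with constant `K` to the eigenvalue sum with any constant
`c` such that `4 ≤ 27 c² K`.
-/

set_option linter.unusedSectionVars false
set_option linter.unusedSimpArgs false
set_option linter.unusedVariables false

open Matrix MeasureTheory Set Filter Topology
open scoped Real FourierTransform SchwartzMap ContDiff ComplexOrder

namespace Vale.Agent.P371m

open Vale.Agent.P371

section final


variable {m n : ℕ} {W : ℝ → Matrix (Fin m) (Fin m) ℂ}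
  (hWm : ∀ i j, Measurable fun x => W x i j) (hWpsd : ∀ x, (W x).PosSemidef)
  {p : ℝ} (hp : 1 ≤ p)
  (hint : Integrable fun x => ∑ α, ((hWpsd x).1.eigenvalues α) ^ p)
  {ψ : Fin n → ℝ → Fin m → ℂ} (hsm : ∀ j, ContDiff ℝ ∞ (ψ j))
  (hcs : ∀ j, HasCompactSupport (ψ j))
  (hON : ∀ j k, ∫ x, star (ψ j x) ⬝ᵥ ψ k x = if j = k then 1 else 0)
  {Q : Matrix (Fin n) (Fin n) ℂ}
  (hQ : ∀ j k, Q j k = (∫ x, star (deriv (ψ j) x) ⬝ᵥ deriv (ψ k) x) -
    ∫ x, star (ψ j x) ⬝ᵥ (W x *ᵥ ψ k x))

include hWm hsm hcs hON hQ in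
/-- **From the kinetic inequality to the eigenvalue sum.** -/
theorem final_of_kinetic (hint' : Integrable fun x => ∑ α, ((hWpsd x).1.eigenvalues α) ^ ((3:ℝ) / 2))
    {K : ℝ} (hKp : 0 < K) {c : ℝ} (hc : 0 < c) (hcK : 4 ≤ 27 * c ^ 2 * K)
    (hkinG : ∀ {ι : Type} [Fintype ι] [DecidableEq ι] (φ : ι → ℝ → Fin m → ℂ),
      (∀ j, ContDiff ℝ ∞ (φ j)) → (∀ j, HasCompactSupport (φ j)) →
      (∀ i j, ∫ x, star (φ i x) ⬝ᵥ φ j x = if i = j then 1 else 0) →
      K * ∫ x, ((rhoM φ x * rhoM φ x * rhoM φ x).trace).re ≤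
        ∑ n, ∑ α, ∫ y, ‖deriv (fun y => φ n y α) y‖ ^ 2) :
    ∃ hQH : Q.IsHermitian, ∑ j, max (-hQH.eigenvalues j) 0 ≤
      c * ∫ x, ∑ α, ((hWpsd x).1.eigenvalues α) ^ ((3:ℝ) / 2) := by
  classical
  obtain ⟨hQH, hform⟩ := Q_facts hWm hWpsd (p := (3:ℝ) / 2) (by norm_num) hint' hsm hcs hQ
  refine ⟨hQH, ?_⟩
  set U : Matrix (Fin n) (Fin n) ℂ := (hQH.eigenvectorUnitary : Matrix (Fin n) (Fin n) ℂ) with hU
  have hSU : star U * U = 1 := unitary_star_mul hQH
  -- the negative eigenspace
  set I := {j : Fin n // hQH.eigenvalues j < 0} with hI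
  set φ : I → ℝ → Fin m → ℂ := fun j y α => ∑ k, U k j.1 * ψ k y α with hφ
  have hc0 : ∀ k α, Continuous (fun y => ψ k y α) :=
    fun k α => (continuous_apply α).comp (hsm k).continuous
  have hs0 : ∀ k α, HasCompactSupport (fun y => ψ k y α) := fun k α =>
    (hcs k).comp_left (g := fun v : Fin m → ℂ => v α) rfl
  have hφsm : ∀ j, ContDiff ℝ ∞ (φ j) := by
    intro j
    refine contDiff_pi.mpr (fun α => ?_)
    exact ContDiff.sum (fun k _ => contDiff_const.mul (contDiff_pi.mp (hsm k) α))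
  have hφcs : ∀ j, HasCompactSupport (φ j) := by
    intro j
    have hK' : IsCompact (⋃ k, tsupport (ψ k)) := isCompact_iUnion (fun k => hcs k)
    refine HasCompactSupport.intro hK' (fun y hy => ?_)
    have h0 : ∀ k, ψ k y = 0 := by
      intro k
      by_contra hne
      exact hy (mem_iUnion.mpr ⟨k, subset_tsupport _ hne⟩)
    ext α
    simp [hφ, h0]
  have hdot : ∀ j k, Integrable (fun y => star (ψ j y) ⬝ᵥ ψ k y) := by
    intro j k
    simp only [dotProduct, Pi.star_apply]
    refine integrable_finsetSum _ (fun α _ => ?_)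
    have hcc : Continuous (fun y => star (ψ j y α) * ψ k y α) :=
      (continuous_star.comp (hc0 j α)).mul (hc0 k α)
    exact hcc.integrable_of_hasCompactSupport (hs0 k α).mul_left
  have hφON : ∀ i j, ∫ x, star (φ i x) ⬝ᵥ φ j x = if i = j then 1 else 0 := by
    intro i j
    have e1 : ∀ x, star (φ i x) ⬝ᵥ φ j x =
        ∑ a, ∑ b, star (U a i.1) * U b j.1 * (star (ψ a x) ⬝ᵥ ψ b x) := fun x =>
      form_comb2 (fun k => U k i.1) (fun k => U k j.1) (fun k => ψ k x) (fun k => ψ k x)
    simp only [e1]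
    rw [integral_finsetSum _ (fun a _ => integrable_finsetSum _ (fun b _ => (hdot a b).const_mul _))]
    simp only [integral_finsetSum _ (fun b _ => (hdot _ b).const_mul _), integral_const_mul, hON]
    have e2 : ∀ a, ∑ b, star (U a i.1) * U b j.1 * (if a = b then (1:ℂ) else 0) = star (U a i.1) * U a j.1 := by
      intro a
      rw [Finset.sum_eq_single a]
      · simp
      · intro b _ hb
        have : ¬ a = b := fun h => hb h.symm
        simp [this]
      · simp
    simp only [e2]
    have e3 := congrFun (congrFun hSU i.1) j.1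
    simp only [Matrix.mul_apply, Matrix.star_apply] at e3
    rw [e3]
    by_cases h : i = j
    · subst h
      simp
    · have h' : i.1 ≠ j.1 := fun h'' => h (Subtype.ext h'')
      simp [h, h', Matrix.one_apply]
  -- kinetic energy inequality
  have hkin := hkinG φ hφsm hφcs hφON
  -- the eigenvalue of a column
  have hcol : ∀ j : I, hQH.eigenvalues j.1 =
      (∑ α, ∫ y, ‖deriv (fun y => φ j y α) y‖ ^ 2) -
        ∫ y, (star (φ j y) ⬝ᵥ (W y *ᵥ φ j y)).re := by
    intro j
    have h1 := hform (fun k => U k j.1)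
    have h2 := eig_quad hQH j.1
    rw [← hU] at h2
    rw [h2, Complex.ofReal_re] at h1
    rw [h1]
    congr 1
    have hderi : ∀ y α, deriv (fun y => φ j y α) y = ∑ k, U k j.1 * deriv (ψ k) y α :=
      fun y α => deriv_comb hsm (fun k => U k j.1) α y
    simp only [hderi]
    rw [integral_finsetSum]
    intro α _
    have hcd : ∀ k, Continuous (deriv (ψ k)) := fun k => (hsm k).continuous_deriv (by simp)
    have hc' : ∀ k, Continuous (fun y => deriv (ψ k) y α) :=
      fun k => (continuous_apply α).comp (hcd k)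
    have hs' : ∀ k, HasCompactSupport (fun y => deriv (ψ k) y α) := fun k =>
      ((hcs k).deriv).comp_left (g := fun v : Fin m → ℂ => v α) rfl
    have hcc : Continuous (fun y => ∑ k, U k j.1 * deriv (ψ k) y α) :=
      continuous_finsetSum _ (fun k _ => continuous_const.mul (hc' k))
    have hss : HasCompactSupport (fun y => ∑ k, U k j.1 * deriv (ψ k) y α) :=
      hcs_finsum _ (fun k y => U k j.1 * deriv (ψ k) y α) (fun k _ => (hs' k).mul_left)
    have h3 : HasCompactSupport (fun y => ‖∑ k, U k j.1 * deriv (ψ k) y α‖ ^ 2) :=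
      hss.comp_left (g := fun z : ℂ => ‖z‖ ^ 2) (by simp)
    exact (by fun_prop : Continuous (fun y => ‖∑ k, U k j.1 * deriv (ψ k) y α‖ ^ 2)).integrable_of_hasCompactSupport h3
  -- integrability of the potential energy
  have hφc : ∀ j α, Continuous (fun y => φ j y α) := fun j α =>
    continuous_finsetSum _ (fun k _ => continuous_const.mul (hc0 k α))
  have hφs : ∀ j α, HasCompactSupport (fun y => φ j y α) := fun j α =>
    hcs_finsum _ (fun k y => U k j.1 * ψ k y α) (fun k _ => (hs0 k α).mul_left)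
  have hpotI : ∀ j, Integrable (fun y => star (φ j y) ⬝ᵥ (W y *ᵥ φ j y)) := fun j =>
    quad_integrable hWm hWpsd (p := (3:ℝ) / 2) (by norm_num) hint' (hφc j) (hφc j) (hφs j)
  have hT := trace_integrable hφsm hφcs
  -- the sum over the negative eigenvalues
  have hsum : ∑ j, max (-hQH.eigenvalues j) 0 = ∑ j : I, (-hQH.eigenvalues j.1) := by
    have h1 : ∀ j, max (-hQH.eigenvalues j) 0 = if hQH.eigenvalues j < 0 then -hQH.eigenvalues j else 0 := by
      intro j
      split_ifs with h
      · exact max_eq_left (by linarith)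
      · exact max_eq_right (by linarith [not_lt.mp h])
    simp only [h1]
    rw [← Finset.sum_filter]
    exact Finset.sum_subtype _ (by simp) _
  rw [hsum]
  -- the combination
  have hpt : ∀ x, (∑ j, star (φ j x) ⬝ᵥ (W x *ᵥ φ j x)).re -
      K * ((rhoM φ x * rhoM φ x * rhoM φ x).trace).re ≤
      c * ∑ α, ((hWpsd x).1.eigenvalues α) ^ ((3:ℝ) / 2) := by
    intro x
    rw [trace_cube (rhoM_herm φ x)]
    exact potential_pointwise φ x (hWpsd x) hKp hc hcK
  have hRe : Integrable (fun x => (∑ j, star (φ j x) ⬝ᵥ (W x *ᵥ φ j x)).re) :=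
    (integrable_finsetSum _ (fun j _ => hpotI j)).re
  have hL : Integrable (fun x => (∑ j, star (φ j x) ⬝ᵥ (W x *ᵥ φ j x)).re -
      K * ((rhoM φ x * rhoM φ x * rhoM φ x).trace).re) :=
    hRe.sub (hT.const_mul K)
  have hmono := integral_mono hL (hint'.const_mul c) hpt
  rw [integral_sub hRe (hT.const_mul K),
    integral_const_mul, integral_const_mul] at hmono
  have hre : ∫ x, (∑ j, star (φ j x) ⬝ᵥ (W x *ᵥ φ j x)).re =
      ∑ j, ∫ x, (star (φ j x) ⬝ᵥ (W x *ᵥ φ j x)).re := by
    have hRj : ∀ j ∈ (Finset.univ : Finset I), Integrable (fun x => (star (φ j x) ⬝ᵥ (W x *ᵥ φ j x)).re) :=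
      fun j _ => (hpotI j).re
    rw [← integral_finsetSum _ hRj]
    refine integral_congr_ae (Eventually.of_forall (fun x => ?_))
    simp only [Complex.re_sum]
  rw [hre] at hmono
  simp only [hcol]
  simp only [neg_sub]
  rw [Finset.sum_sub_distrib]
  linarith

end final

end Vale.Agent.P371m
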