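import Vale.Agent.P371m.Defs

/-!
Diagonal formulas for `Bn` and `DBn`: rotate to an eigenbasis of `G`.
-/

namespace Vale.Agent.P371m
open Matrix BigOperators
open Vale.Agent.P371h8 (dd pev pdd)

variable {ι : Type*} [Fintype ι] [DecidableEq ι]

theorem dd_succ (n : ℕ) (y y' : ℝ) : dd (n + 1) y y' = y * dd n y y' + y' ^ n := by
  unfold dd
  rw [Finset.sum_range_succ', Finset.mul_sum]
  have h0 : y ^ 0 * y' ^ (n + 1 - 1 - 0) = y' ^ n := by simp
  rw [h0]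
  refine congrArg (· + y' ^ n) (Finset.sum_congr rfl ?_)
  intro r _
  have h : n + 1 - 1 - (r + 1) = n - 1 - r := by omega
  rw [h, pow_succ]
  ring

/-- `Y` in the eigenbasis. -/
def Yd (g : ι → ℝ) (R : Matrix ι ι ℝ) (n : ℕ) : Matrix ι ι ℝ :=
  Matrix.of fun i j => (g i + g j) ^ n * R i j

/-- `Z` in the eigenbasis. -/
def Zd (g : ι → ℝ) (R D : Matrix ι ι ℝ) (n : ℕ) : Matrix ι ι ℝ :=
  Matrix.of fun i j => (g i + g j) ^ n * D i j
    + ∑ k, R i k * R k j * (dd n (g i + g j) (g k + g j) + dd n (g i + g j) (g i + g k))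

theorem conj_mul_conj (Q A B : Matrix ι ι ℝ) (hQ : Qᵀ * Q = 1) :
    (Q * A * Qᵀ) * (Q * B * Qᵀ) = Q * (A * B) * Qᵀ := by
  calc (Q * A * Qᵀ) * (Q * B * Qᵀ) = Q * A * (Qᵀ * Q) * B * Qᵀ := by
        simp only [Matrix.mul_assoc]
    _ = Q * (A * B) * Qᵀ := by
        rw [hQ]
        simp only [Matrix.mul_assoc, Matrix.one_mul]

omit [Fintype ι] [DecidableEq ι] in
theorem Yd_zero (g : ι → ℝ) (R : Matrix ι ι ℝ) : Yd g R 0 = R := by
  ext i j
  simp [Yd]

theorem Yd_succ (g : ι → ℝ) (R : Matrix ι ι ℝ) (n : ℕ) :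
    Yd g R (n + 1) = diagonal g * Yd g R n + Yd g R n * diagonal g := by
  ext i j
  simp only [Yd, Matrix.add_apply, Matrix.diagonal_mul, Matrix.mul_diagonal, Matrix.of_apply]
  rw [pow_succ]
  ring

theorem conj_cancel (Q A : Matrix ι ι ℝ) (hQ : Qᵀ * Q = 1) : A = Q * (Qᵀ * A * Q) * Qᵀ := by
  have hQ' : Q * Qᵀ = 1 := mul_eq_one_comm.mp hQ
  calc A = (Q * Qᵀ) * A * (Q * Qᵀ) := by rw [hQ']; simp
    _ = Q * (Qᵀ * A * Q) * Qᵀ := by simp only [Matrix.mul_assoc]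

theorem Y_eq (Q : Matrix ι ι ℝ) (g : ι → ℝ) (hQ : Qᵀ * Q = 1) (G : Matrix ι ι ℝ)
    (hG : G = Q * diagonal g * Qᵀ) (R : Matrix ι ι ℝ) (n : ℕ) :
    Y G R n = Q * Yd g (Qᵀ * R * Q) n * Qᵀ := by
  induction n with
  | zero =>
    rw [Yd_zero]
    exact conj_cancel Q R hQ
  | succ n ih =>
    rw [Yd_succ]
    change G * Y G R n + Y G R n * G = _
    rw [ih, hG, conj_mul_conj Q _ _ hQ, conj_mul_conj Q _ _ hQ, Matrix.mul_add, Matrix.add_mul]

omit [DecidableEq ι] in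
theorem Zd_zero (g : ι → ℝ) (R D : Matrix ι ι ℝ) : Zd g R D 0 = D := by
  ext i j
  simp [Zd, dd]

omit [DecidableEq ι] in
theorem mul_Yd (g : ι → ℝ) (R R' : Matrix ι ι ℝ) (n : ℕ) (i j : ι) :
    (R * Yd g R' n) i j = ∑ k, R i k * R' k j * (g k + g j) ^ n := by
  simp only [Matrix.mul_apply, Yd, Matrix.of_apply]
  refine Finset.sum_congr rfl fun k _ => ?_
  ring

omit [DecidableEq ι] in
theorem Yd_mul (g : ι → ℝ) (R R' : Matrix ι ι ℝ) (n : ℕ) (i j : ι) :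
    (Yd g R' n * R) i j = ∑ k, R' i k * R k j * (g i + g k) ^ n := by
  simp only [Matrix.mul_apply, Yd, Matrix.of_apply]
  refine Finset.sum_congr rfl fun k _ => ?_
  ring

theorem Zd_succ (g : ι → ℝ) (R D : Matrix ι ι ℝ) (n : ℕ) :
    Zd g R D (n + 1) = R * Yd g R n + diagonal g * Zd g R D n
      + Zd g R D n * diagonal g + Yd g R n * R := by
  ext i j
  simp only [Matrix.add_apply, mul_Yd, Yd_mul, Matrix.diagonal_mul, Matrix.mul_diagonal]
  simp only [Zd, Matrix.of_apply, dd_succ]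
  have key : ∑ k, R i k * R k j * ((g i + g j) * dd n (g i + g j) (g k + g j) + (g k + g j) ^ n
        + ((g i + g j) * dd n (g i + g j) (g i + g k) + (g i + g k) ^ n))
      = (g i + g j) * ∑ k, R i k * R k j *
          (dd n (g i + g j) (g k + g j) + dd n (g i + g j) (g i + g k))
        + ∑ k, R i k * R k j * (g k + g j) ^ n + ∑ k, R i k * R k j * (g i + g k) ^ n := by
    rw [Finset.mul_sum, ← Finset.sum_add_distrib, ← Finset.sum_add_distrib]
    refine Finset.sum_congr rfl fun k _ => ?_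
    ring
  rw [key, pow_succ]
  ring

theorem Z_eq (Q : Matrix ι ι ℝ) (g : ι → ℝ) (hQ : Qᵀ * Q = 1) (G : Matrix ι ι ℝ)
    (hG : G = Q * diagonal g * Qᵀ) (R D : Matrix ι ι ℝ) (n : ℕ) :
    Z G R D n = Q * Zd g (Qᵀ * R * Q) (Qᵀ * D * Q) n * Qᵀ := by
  induction n with
  | zero =>
    rw [Zd_zero]
    exact conj_cancel Q D hQ
  | succ n ih =>
    rw [Zd_succ]
    change R * Y G R n + G * Z G R D n + Z G R D n * G + Y G R n * R = _
    rw [ih, Y_eq Q g hQ G hG R n]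
    conv_lhs => rw [hG]
    have hRc := conj_cancel Q R hQ
    generalize Qᵀ * R * Q = R' at hRc ⊢
    generalize Qᵀ * D * Q = D'
    subst hRc
    rw [conj_mul_conj Q _ _ hQ, conj_mul_conj Q _ _ hQ, conj_mul_conj Q _ _ hQ,
      conj_mul_conj Q _ _ hQ]
    simp only [Matrix.mul_add, Matrix.add_mul]

theorem trace_conj (Q A B : Matrix ι ι ℝ) (hQ : Qᵀ * Q = 1) :
    trace ((Q * A * Qᵀ) * (Q * B * Qᵀ)) = trace (A * B) := by
  rw [conj_mul_conj Q _ _ hQ, Matrix.trace_mul_comm, ← Matrix.mul_assoc, hQ, Matrix.one_mul]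

theorem trace_conj' (Q A X : Matrix ι ι ℝ) (hQ : Qᵀ * Q = 1) :
    trace (A * (Q * X * Qᵀ)) = trace ((Qᵀ * A * Q) * X) := by
  have h := trace_conj Q (Qᵀ * A * Q) X hQ
  rwa [← conj_cancel Q A hQ] at h

omit [DecidableEq ι] in
theorem transpose_conj_symm (Q R : Matrix ι ι ℝ) (hR : R.IsSymm) :
    (Qᵀ * R * Q).IsSymm := by
  unfold Matrix.IsSymm at *
  rw [Matrix.transpose_mul, Matrix.transpose_mul, Matrix.transpose_transpose, hR,
    Matrix.mul_assoc]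

omit [DecidableEq ι] in
theorem trace_mul_Yd (g : ι → ℝ) (A R : Matrix ι ι ℝ) (hR : R.IsSymm) (n : ℕ) :
    trace (A * Yd g R n) = ∑ i, ∑ j, A i j * R i j * (g i + g j) ^ n := by
  simp only [Matrix.trace, Matrix.diag, Matrix.mul_apply, Yd, Matrix.of_apply]
  refine Finset.sum_congr rfl fun i _ => Finset.sum_congr rfl fun j _ => ?_
  rw [hR.apply i j, add_comm (g j) (g i)]
  ring

theorem Bn_spectral (Q : Matrix ι ι ℝ) (g : ι → ℝ) (hQ : Qᵀ * Q = 1) (G : Matrix ι ι ℝ)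
    (hG : G = Q * diagonal g * Qᵀ) (R : Matrix ι ι ℝ) (hR : R.IsSymm) (n : ℕ) :
    Bn G R n = ∑ i, ∑ j, (Qᵀ * R * Q) i j ^ 2 * (g i + g j) ^ n := by
  unfold Bn
  rw [Y_eq Q g hQ G hG R n, trace_conj' Q _ _ hQ, trace_mul_Yd g _ _ (transpose_conj_symm Q R hR)]
  refine Finset.sum_congr rfl fun i _ => Finset.sum_congr rfl fun j _ => ?_
  ring

omit [DecidableEq ι] in
theorem trace_mul_Zd (g : ι → ℝ) (R D : Matrix ι ι ℝ) (hR : R.IsSymm) (hD : D.IsSymm) (n : ℕ) :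
    trace (R * Zd g R D n) =
      ∑ i, ∑ j, D i j * R i j * (g i + g j) ^ n
      + 2 * ∑ i, ∑ j, ∑ l, R i j * R j l * R l i * dd n (g i + g j) (g i + g l) := by
  have h1 : trace (R * Zd g R D n) =
      ∑ i, ∑ j, D i j * R i j * (g i + g j) ^ n
      + ∑ i, ∑ j, ∑ k, R i j * R j k * R k i * dd n (g i + g j) (g i + g k)
      + ∑ i, ∑ j, ∑ k, R i j * R j k * R k i * dd n (g j + g i) (g j + g k) := by
    simp only [Matrix.trace, Matrix.diag, Matrix.mul_apply, Zd, Matrix.of_apply]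
    rw [← Finset.sum_add_distrib, ← Finset.sum_add_distrib]
    refine Finset.sum_congr rfl fun i _ => ?_
    rw [← Finset.sum_add_distrib, ← Finset.sum_add_distrib]
    refine Finset.sum_congr rfl fun j _ => ?_
    rw [mul_add, Finset.mul_sum, add_assoc, ← Finset.sum_add_distrib]
    congr 1
    · rw [hD.apply j i, add_comm (g j) (g i)]
      ring
    · refine Finset.sum_congr rfl fun k _ => ?_
      rw [add_comm (g k) (g i), add_comm (g j) (g i)]
      ring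
  have h2 : ∑ i, ∑ j, ∑ k, R i j * R j k * R k i * dd n (g j + g i) (g j + g k)
      = ∑ i, ∑ j, ∑ k, R i j * R j k * R k i * dd n (g i + g j) (g i + g k) := by
    rw [Finset.sum_comm]
    refine Finset.sum_congr rfl fun i _ => Finset.sum_congr rfl fun j _ =>
      Finset.sum_congr rfl fun k _ => ?_
    rw [hR.apply j i, hR.apply i k, hR.apply k j]
    ring
  rw [h1, h2]
  ring

theorem DBn_spectral (Q : Matrix ι ι ℝ) (g : ι → ℝ) (hQ : Qᵀ * Q = 1) (G : Matrix ι ι ℝ)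
    (hG : G = Q * diagonal g * Qᵀ) (R D : Matrix ι ι ℝ) (hR : R.IsSymm) (hD : D.IsSymm) (n : ℕ) :
    DBn G R D n =
      2 * ∑ i, ∑ j, (Qᵀ * D * Q) i j * (Qᵀ * R * Q) i j * (g i + g j) ^ n
      + 2 * ∑ i, ∑ j, ∑ l, (Qᵀ * R * Q) i j * (Qᵀ * R * Q) j l * (Qᵀ * R * Q) l i *
          dd n (g i + g j) (g i + g l) := by
  unfold DBn
  rw [Y_eq Q g hQ G hG R n, Z_eq Q g hQ G hG R D n]
  have hR' := transpose_conj_symm Q R hR
  have hD' := transpose_conj_symm Q D hD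
  rw [trace_conj' Q _ _ hQ, trace_conj' Q _ _ hQ, trace_mul_Yd g _ _ hR',
    trace_mul_Zd g _ _ hR' hD']
  ring

end Vale.Agent.P371m
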