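import Vale.Agent.P371h8.Defs

/-!
Matrix version of the Bellman function proof of the sharp kinetic inequality.
`R = b bᵀ` for an `N × m` matrix `b`, `Ġ = R`, `Ṙ = D = v bᵀ + b vᵀ`.
`Y G R n` is the n-th iterate of `X ↦ G X + X G` on `R`, `Bn = tr (R Y_n)`.
-/

namespace Vale.Agent.P371m
open Matrix BigOperators
open Vale.Agent.P371h8 (dd pev pdd)

variable {ι : Type*} [Fintype ι]

/-- iterates of `X ↦ G X + X G` on `R`. -/
def Y (G R : Matrix ι ι ℝ) : ℕ → Matrix ι ι ℝ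
  | 0 => R
  | n + 1 => G * Y G R n + Y G R n * G

/-- derivative of `Y` along `Ġ = R`, `Ṙ = D`. -/
def Z (G R D : Matrix ι ι ℝ) : ℕ → Matrix ι ι ℝ
  | 0 => D
  | n + 1 => R * Y G R n + G * Z G R D n + Z G R D n * G + Y G R n * R

/-- `tr (R Y_n)`. -/
def Bn (G R : Matrix ι ι ℝ) (n : ℕ) : ℝ := trace (R * Y G R n)

/-- derivative of `Bn` along the path. -/
def DBn (G R D : Matrix ι ι ℝ) (n : ℕ) : ℝ := trace (D * Y G R n) + trace (R * Z G R D n)

/-- the polynomial Bellman function. -/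
def Bp (a : ℕ → ℝ) (d : ℕ) (G R : Matrix ι ι ℝ) : ℝ := ∑ n ∈ Finset.range d, a n * Bn G R n

/-- its derivative along the path. -/
def DBp (a : ℕ → ℝ) (d : ℕ) (G R D : Matrix ι ι ℝ) : ℝ := ∑ n ∈ Finset.range d, a n * DBn G R D n

/-- `h(d) = sinc d - cos d`. -/
noncomputable def hh (x : ℝ) : ℝ := Real.sinc x - Real.cos x

/-- the exact remainder kernel
`4 q(y) q(y') + 2 q^{[1]}(y,y') + π²/4 = -(π²/4) h(π(y-y')/2) / (sin(πy/2) sin(πy'/2))`. -/
noncomputable def tauQ (y y' : ℝ) : ℝ :=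
  -(Real.pi ^ 2 / 4) * hh (Real.pi * (y - y') / 2) /
    (Real.sin (Real.pi * y / 2) * Real.sin (Real.pi * y' / 2))

end Vale.Agent.P371m
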