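import Vale.Agent.P371m.Remainder
import Vale.Agent.P371m.Defs

/-!
The kernel statement of the matrix pipeline: `kernel_nonneg`, from `remainder_le`.
-/

open Real BigOperators Matrix

namespace Vale.Agent.P371m

variable {ι κ : Type*} [Fintype ι] [Fintype κ]

theorem kernel_nonneg (b : Matrix ι κ ℝ) (θ : ι → ℝ) (h : ∀ i, 0 < θ i ∧ θ i < π / 2) :
    0 ≤ ∑ i, ∑ j, ∑ l, (b * bᵀ) i j * (b * bᵀ) j l * (b * bᵀ) l i *
      (hh (θ j - θ l) / (sin (θ i + θ j) * sin (θ i + θ l))) := by
  classical
  have hp := pi_pos
  set R : Matrix ι ι ℝ := b * bᵀ with hR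
  have hRpsd : R.PosSemidef := by
    have := Matrix.posSemidef_self_mul_conjTranspose b
    simpa [hR, Matrix.conjTranspose_eq_transpose_of_trivial] using this
  have hRsym : ∀ i j, R i j = R j i := fun i j => by
    have := hRpsd.isHermitian.apply j i
    simpa using this
  set g : ι → ℝ := fun i => 2 * θ i / π with hg
  have hg01 : ∀ i, 0 < g i ∧ g i < 1 := fun i => by
    have hi := h i
    constructor
    · simp only [hg]
      have := hi.1
      positivity
    · simp only [hg]
      rw [div_lt_one hp]
      linarith [hi.2]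
  have hmain := remainder_le R hRpsd g hg01
  have hθ : ∀ i j, π * (g i + g j) / 2 = θ i + θ j := fun i j => by
    simp only [hg]
    field_simp
  have hterm : ∀ i j l, R i j * R j l * R l i * tauq (g j + g i) (g i + g l)
      = -(π ^ 2 / 4) * (R i j * R j l * R l i * (hh (θ j - θ l) / (sin (θ i + θ j) * sin (θ i + θ l)))) := by
    intro i j l
    have hi := hg01 i
    have hj := hg01 j
    have hl := hg01 l
    rw [tauq_eq (by linarith [hi.1, hj.1]) (by linarith [hi.2, hj.2]) (by linarith [hi.1, hl.1])
      (by linarith [hi.2, hl.2])]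
    rw [hθ j i, hθ i l]
    have e1 : θ j + θ i - (θ i + θ l) = θ j - θ l := by ring
    rw [e1, add_comm (θ j) (θ i)]
    unfold hh
    ring
  have hre : ∑ i, ∑ j, ∑ k, R i j * R j k * R k i * tauq (g i + g j) (g j + g k)
      = ∑ i, ∑ j, ∑ l, R i j * R j l * R l i * tauq (g j + g i) (g i + g l) := by
    -- rename the centre `j` of the left side into `i`
    rw [Finset.sum_comm]
    refine Finset.sum_congr rfl fun i _ => Finset.sum_congr rfl fun j _ =>
      Finset.sum_congr rfl fun k _ => ?_
    rw [hRsym j i, hRsym k j, hRsym i k]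
    ring
  rw [hre] at hmain
  rw [Finset.sum_congr rfl fun i _ => Finset.sum_congr rfl fun j _ =>
    Finset.sum_congr rfl fun l _ => hterm i j l] at hmain
  simp only [← Finset.mul_sum] at hmain
  have hpi2 : 0 < π ^ 2 / 4 := by positivity
  nlinarith

end Vale.Agent.P371m
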