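import Vale.Agent.P371m.Defs

/-! The derivative of the polynomial Bellman function along a path, generic `R`, `D`. -/

namespace Vale.Agent.P371m
open Matrix BigOperators

variable {ι : Type*} [Fintype ι]

/-- the entries of `Y` along a path -/
lemma hasDerivAt_Y (G R D : ℝ → Matrix ι ι ℝ) (x : ℝ)
    (hR : ∀ i j, HasDerivAt (fun t => R t i j) (D x i j) x)
    (hG : ∀ i j, HasDerivAt (fun t => G t i j) (R x i j) x) (n : ℕ) :
    ∀ i j, HasDerivAt (fun t => Y (G t) (R t) n i j) (Z (G x) (R x) (D x) n i j) x := by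
  induction n with
  | zero =>
    intro i j
    exact hR i j
  | succ n ih =>
    intro i j
    simp only [Y, Z, Matrix.add_apply, Matrix.mul_apply]
    have h1 : HasDerivAt (fun t => ∑ k, G t i k * Y (G t) (R t) n k j)
        (∑ k, (R x i k * Y (G x) (R x) n k j + G x i k * Z (G x) (R x) (D x) n k j)) x :=
      HasDerivAt.fun_sum (fun k _ => (hG i k).mul (ih k j))
    have h2 : HasDerivAt (fun t => ∑ k, Y (G t) (R t) n i k * G t k j)
        (∑ k, (Z (G x) (R x) (D x) n i k * G x k j + Y (G x) (R x) n i k * R x k j)) x :=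
      HasDerivAt.fun_sum (fun k _ => (ih i k).mul (hG k j))
    refine (h1.add h2).congr_deriv ?_
    simp only [Finset.sum_add_distrib]
    ring

/-- the derivative of `Bn` along a path -/
lemma hasDerivAt_Bn (G R D : ℝ → Matrix ι ι ℝ) (x : ℝ)
    (hR : ∀ i j, HasDerivAt (fun t => R t i j) (D x i j) x)
    (hG : ∀ i j, HasDerivAt (fun t => G t i j) (R x i j) x) (n : ℕ) :
    HasDerivAt (fun t => Bn (G t) (R t) n) (DBn (G x) (R x) (D x) n) x := by
  have hY := hasDerivAt_Y G R D x hR hG n
  have key : HasDerivAt (fun t => ∑ i, ∑ j, R t i j * Y (G t) (R t) n j i)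
      (∑ i, ∑ j, (D x i j * Y (G x) (R x) n j i + R x i j * Z (G x) (R x) (D x) n j i)) x :=
    HasDerivAt.fun_sum (fun i _ => HasDerivAt.fun_sum (fun j _ => (hR i j).mul (hY j i)))
  have e1 : ∀ t, Bn (G t) (R t) n = ∑ i, ∑ j, R t i j * Y (G t) (R t) n j i := by
    intro t
    simp only [Bn, Matrix.trace, Matrix.diag, Matrix.mul_apply]
  refine (key.congr_of_eventuallyEq (Filter.Eventually.of_forall e1)).congr_deriv ?_
  simp only [DBn, Matrix.trace, Matrix.diag, Matrix.mul_apply, ← Finset.sum_add_distrib]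

/-- The derivative of the polynomial Bellman function along a path. -/
theorem hasDerivAt_Bp (a : ℕ → ℝ) (d : ℕ) (G R D : ℝ → Matrix ι ι ℝ) (x : ℝ)
    (hR : ∀ i j, HasDerivAt (fun t => R t i j) (D x i j) x)
    (hG : ∀ i j, HasDerivAt (fun t => G t i j) (R x i j) x) :
    HasDerivAt (fun t => Bp a d (G t) (R t)) (DBp a d (G x) (R x) (D x)) x := by
  unfold Bp DBp
  exact HasDerivAt.fun_sum (fun n _ => (hasDerivAt_Bn G R D x hR hG n).const_mul (a n))

end Vale.Agent.P371m
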