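import Mathlib

/-!
Positive semidefinite kernels for the matrix Lieb-Thirring inequality at `γ = 1`:
the Hankel kernel `sin (u m) / sin m`, via the Euler product.
-/

open Real Set Filter Topology BigOperators Matrix MeasureTheory

namespace Vale.Agent.P371m

variable {ι : Type*} [Fintype ι]

/-- a kernel with symmetric entries and nonnegative quadratic form is positive semidefinite -/
lemma psd_of_quad [DecidableEq ι] (k : ι → ι → ℝ) (hs : ∀ i j, k i j = k j i)
    (hq : ∀ ξ : ι → ℝ, 0 ≤ ∑ i, ∑ j, ξ i * ξ j * k i j) : (Matrix.of k).PosSemidef := by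
  refine Matrix.PosSemidef.of_dotProduct_mulVec_nonneg ?_ ?_
  · ext i j
    simp [Matrix.conjTranspose_apply, hs j i]
  · intro x
    have := hq x
    simp only [star_trivial]
    have e : x ⬝ᵥ (Matrix.of k *ᵥ x) = ∑ i, ∑ j, x i * x j * k i j := by
      simp only [dotProduct, Matrix.mulVec, Matrix.of_apply, Finset.mul_sum]
      refine Finset.sum_congr rfl fun i _ => Finset.sum_congr rfl fun j _ => ?_
      ring
    rw [e]
    exact this

/-- the quadratic form of a positive semidefinite kernel -/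
lemma quad_nonneg [DecidableEq ι] {k : ι → ι → ℝ} (h : (Matrix.of k).PosSemidef) (ξ : ι → ℝ) :
    0 ≤ ∑ i, ∑ j, ξ i * ξ j * k i j := by
  have := h.dotProduct_mulVec_nonneg ξ
  simp only [star_trivial] at this
  have e : ξ ⬝ᵥ (Matrix.of k *ᵥ ξ) = ∑ i, ∑ j, ξ i * ξ j * k i j := by
    simp only [dotProduct, Matrix.mulVec, Matrix.of_apply, Finset.mul_sum]
    refine Finset.sum_congr rfl fun i _ => Finset.sum_congr rfl fun j _ => ?_
    ring
  rwa [e] at this

/-- rank one kernels -/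
lemma psd_rank_one [DecidableEq ι] (f : ι → ℝ) : (Matrix.of fun i j => f i * f j).PosSemidef := by
  refine psd_of_quad _ (fun i j => mul_comm _ _) fun ξ => ?_
  have e : ∑ i, ∑ j, ξ i * ξ j * (f i * f j) = (∑ i, ξ i * f i) ^ 2 := by
    rw [sq, Finset.sum_mul_sum]
    refine Finset.sum_congr rfl fun i _ => Finset.sum_congr rfl fun j _ => ?_
    ring
  rw [e]
  positivity

/-- nonnegative constant kernels -/
lemma psd_const [DecidableEq ι] {c : ℝ} (hc : 0 ≤ c) : (Matrix.of fun (_ _ : ι) => c).PosSemidef := by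
  have := psd_rank_one (ι := ι) (fun _ => Real.sqrt c)
  have e : (fun (_ _ : ι) => c) = fun (i j : ι) => (fun _ => Real.sqrt c) i * (fun _ => Real.sqrt c) j := by
    funext i j
    exact (Real.mul_self_sqrt hc).symm
  rw [e]
  exact this

lemma psd_add [DecidableEq ι] {k l : ι → ι → ℝ} (hk : (Matrix.of k).PosSemidef)
    (hl : (Matrix.of l).PosSemidef) : (Matrix.of fun i j => k i j + l i j).PosSemidef := by
  have := hk.add hl
  have e : Matrix.of (fun i j => k i j + l i j) = Matrix.of k + Matrix.of l := by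
    ext i j
    simp
  rw [e]
  exact this

lemma psd_smul [DecidableEq ι] {k : ι → ι → ℝ} {c : ℝ} (hc : 0 ≤ c) (hk : (Matrix.of k).PosSemidef) :
    (Matrix.of fun i j => c * k i j).PosSemidef := by
  refine psd_of_quad _ (fun i j => ?_) fun ξ => ?_
  · have := hk.isHermitian.apply j i
    simp only [Matrix.of_apply, star_trivial] at this
    rw [this]
  · have := quad_nonneg hk ξ
    have e : ∑ i, ∑ j, ξ i * ξ j * (c * k i j) = c * ∑ i, ∑ j, ξ i * ξ j * k i j := by
      simp only [Finset.mul_sum]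
      refine Finset.sum_congr rfl fun i _ => Finset.sum_congr rfl fun j _ => ?_
      ring
    rw [e]
    positivity

lemma psd_mul [DecidableEq ι] {k l : ι → ι → ℝ} (hk : (Matrix.of k).PosSemidef)
    (hl : (Matrix.of l).PosSemidef) : (Matrix.of fun i j => k i j * l i j).PosSemidef := by
  have := hk.hadamard hl
  have e : Matrix.of (fun i j => k i j * l i j) = (Matrix.of k) ⊙ (Matrix.of l) := by
    ext i j
    simp [Matrix.hadamard_apply]
  rw [e]
  exact this

/-- the Cauchy matrix `1 / (p i + p j)`. -/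
lemma psd_cauchy [DecidableEq ι] (p : ι → ℝ) (hp : ∀ i, 0 < p i) :
    (Matrix.of fun i j => 1 / (p i + p j)).PosSemidef := by
  refine psd_of_quad _ (fun i j => by rw [add_comm]) fun ξ => ?_
  have hint : ∀ i j, ∫ t in Ioi (0 : ℝ), Real.exp (-(p i + p j) * t) = 1 / (p i + p j) := by
    intro i j
    have h0 : -(p i + p j) < 0 := by
      have := hp i
      have := hp j
      linarith
    have := integral_exp_mul_Ioi h0 0
    rw [this]
    simp only [mul_zero, exp_zero]
    have hne : p i + p j ≠ 0 := by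
      have := hp i
      have := hp j
      positivity
    field_simp
  have hii : ∀ i j, IntegrableOn (fun t => Real.exp (-(p i + p j) * t)) (Ioi (0 : ℝ)) := by
    intro i j
    have h0 : -(p i + p j) < 0 := by
      have := hp i
      have := hp j
      linarith
    exact integrableOn_exp_mul_Ioi h0 0
  have e : ∑ i, ∑ j, ξ i * ξ j * (1 / (p i + p j))
      = ∫ t in Ioi (0 : ℝ), (∑ i, ξ i * Real.exp (-(p i) * t)) ^ 2 := by
    have e2 : ∀ t : ℝ, (∑ i, ξ i * Real.exp (-(p i) * t)) ^ 2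
        = ∑ i, ∑ j, ξ i * ξ j * Real.exp (-(p i + p j) * t) := by
      intro t
      rw [sq, Finset.sum_mul_sum]
      refine Finset.sum_congr rfl fun i _ => Finset.sum_congr rfl fun j _ => ?_
      have : Real.exp (-(p i + p j) * t) = Real.exp (-(p i) * t) * Real.exp (-(p j) * t) := by
        rw [← Real.exp_add]
        ring_nf
      rw [this]
      ring
    simp_rw [e2]
    rw [integral_finsetSum]
    · refine Finset.sum_congr rfl fun i _ => ?_
      rw [integral_finsetSum]
      · refine Finset.sum_congr rfl fun j _ => ?_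
        rw [integral_const_mul, hint]
      · intro j _
        exact (hii i j).const_mul _
    · intro i _
      refine integrable_finsetSum _ fun j _ => ?_
      exact (hii i j).const_mul _
  rw [e]
  exact integral_nonneg fun t => sq_nonneg _

/-- one Euler factor. -/
lemma psd_factor [DecidableEq ι] (x : ι → ℝ) (hx : ∀ i, 0 < x i ∧ x i < 1) {u : ℝ} (hu0 : 0 ≤ u)
    (hu1 : u ≤ 1) {a : ℝ} (ha : 1 ≤ a) :
    (Matrix.of fun i j =>
      (1 - (u * ((x i + x j) / 2)) ^ 2 / a ^ 2) / (1 - ((x i + x j) / 2) ^ 2 / a ^ 2)).PosSemidef := by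
  have h1 : (Matrix.of fun i j => 1 / ((a - x i) + (a - x j))).PosSemidef :=
    psd_cauchy (fun i => a - x i) fun i => by linarith [(hx i).2]
  have h2 : (Matrix.of fun i j => 1 / ((a + x i) + (a + x j))).PosSemidef :=
    psd_cauchy (fun i => a + x i) fun i => by linarith [(hx i).1]
  have hu2 : 0 ≤ u ^ 2 := by positivity
  have hu3 : 0 ≤ (1 - u ^ 2) * a := by
    have : u ^ 2 ≤ 1 := by nlinarith
    have h' : 0 ≤ 1 - u ^ 2 := by linarith
    have ha0 : 0 ≤ a := by linarith
    positivity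
  have h3 := psd_add (psd_const (ι := ι) hu2) (psd_smul hu3 (psd_add h1 h2))
  have e : (fun i j =>
      (1 - (u * ((x i + x j) / 2)) ^ 2 / a ^ 2) / (1 - ((x i + x j) / 2) ^ 2 / a ^ 2))
      = fun i j => u ^ 2 + ((1 - u ^ 2) * a) * (1 / ((a - x i) + (a - x j)) + 1 / ((a + x i) + (a + x j))) := by
    funext i j
    have hi := hx i
    have hj := hx j
    have ha0 : 0 < a := by linarith
    have hya : (x i + x j) / 2 < a := by linarith [hi.2, hj.2]
    have hy0 : 0 < (x i + x j) / 2 := by linarith [hi.1, hj.1]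
    set y := (x i + x j) / 2 with hy
    have e1 : (a - x i) + (a - x j) = 2 * (a - y) := by rw [hy]; ring
    have e2 : (a + x i) + (a + x j) = 2 * (a + y) := by rw [hy]; ring
    rw [e1, e2]
    have h4 : a - y ≠ 0 := by linarith
    have h5 : a + y ≠ 0 := by linarith
    have h6 : a ≠ 0 := ha0.ne'
    have h7 : 1 - y ^ 2 / a ^ 2 ≠ 0 := by
      have : y ^ 2 / a ^ 2 < 1 := by
        rw [div_lt_one (by positivity)]
        nlinarith
      linarith
    have h8 : 1 - y ^ 2 / a ^ 2 = (a - y) * (a + y) / a ^ 2 := by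
      field_simp
      ring
    rw [h8]
    field_simp
    ring
  rw [e]
  exact h3

/-- finite products of Euler factors. -/
lemma psd_prod [DecidableEq ι] (x : ι → ℝ) (hx : ∀ i, 0 < x i ∧ x i < 1) {u : ℝ} (hu0 : 0 ≤ u)
    (hu1 : u ≤ 1) (n : ℕ) :
    (Matrix.of fun i j => ∏ l ∈ Finset.range n,
      ((1 - (u * ((x i + x j) / 2)) ^ 2 / ((l : ℝ) + 1) ^ 2) /
        (1 - ((x i + x j) / 2) ^ 2 / ((l : ℝ) + 1) ^ 2))).PosSemidef := by
  induction n with
  | zero =>
    simp only [Finset.range_zero, Finset.prod_empty]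
    exact psd_const zero_le_one
  | succ n ih =>
    simp only [Finset.prod_range_succ]
    have hf := psd_factor x hx hu0 hu1 (a := (n : ℝ) + 1) (by
      have : (0 : ℝ) ≤ n := Nat.cast_nonneg n
      linarith)
    exact psd_mul ih hf

/-- **The Hankel kernel** `sin (π u y) / sin (π y)`, `y = (x i + x j)/2`, is positive semidefinite:
Euler product. -/
lemma psd_hankel [DecidableEq ι] (x : ι → ℝ) (hx : ∀ i, 0 < x i ∧ x i < 1) {u : ℝ} (hu0 : 0 ≤ u)
    (hu1 : u ≤ 1) :
    (Matrix.of fun i j => sin (π * (u * ((x i + x j) / 2))) / sin (π * ((x i + x j) / 2))).PosSemidef := by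
  refine psd_of_quad _ (fun i j => by rw [add_comm]) fun ξ => ?_
  have hlim : ∀ i j, Tendsto (fun n : ℕ => u * ∏ l ∈ Finset.range n,
      ((1 - (u * ((x i + x j) / 2)) ^ 2 / ((l : ℝ) + 1) ^ 2) /
        (1 - ((x i + x j) / 2) ^ 2 / ((l : ℝ) + 1) ^ 2))) atTop
      (𝓝 (sin (π * (u * ((x i + x j) / 2))) / sin (π * ((x i + x j) / 2)))) := by
    intro i j
    have hi := hx i
    have hj := hx j
    set y := (x i + x j) / 2 with hy
    have hy0 : 0 < y := by rw [hy]; linarith [hi.1, hj.1]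
    have hy1 : y < 1 := by rw [hy]; linarith [hi.2, hj.2]
    have hs : sin (π * y) ≠ 0 := by
      apply ne_of_gt
      apply sin_pos_of_pos_of_lt_pi
      · have := pi_pos
        positivity
      · have := pi_pos
        nlinarith
    have h1 := Real.tendsto_euler_sin_prod (u * y)
    have h2 := Real.tendsto_euler_sin_prod y
    have h3 := h1.div h2 hs
    refine h3.congr fun n => ?_
    have hpi := pi_pos
    have hne : ∀ l : ℕ, 1 - y ^ 2 / ((l : ℝ) + 1) ^ 2 ≠ 0 := by
      intro l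
      have hl : (0 : ℝ) ≤ l := Nat.cast_nonneg l
      have : y ^ 2 / ((l : ℝ) + 1) ^ 2 < 1 := by
        rw [div_lt_one (by positivity)]
        nlinarith
      linarith
    have hprod : ∏ l ∈ Finset.range n, (1 - y ^ 2 / ((l : ℝ) + 1) ^ 2) ≠ 0 :=
      Finset.prod_ne_zero_iff.2 fun l _ => hne l
    simp only [Pi.div_apply]
    rw [Finset.prod_div_distrib]
    generalize (∏ l ∈ Finset.range n, (1 - (u * y) ^ 2 / ((l : ℝ) + 1) ^ 2)) = A
    generalize (∏ l ∈ Finset.range n, (1 - y ^ 2 / ((l : ℝ) + 1) ^ 2)) = B at hprod ⊢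
    field_simp
  have hl2 : Tendsto (fun n : ℕ => ∑ i, ∑ j, ξ i * ξ j * (u * ∏ l ∈ Finset.range n,
      ((1 - (u * ((x i + x j) / 2)) ^ 2 / ((l : ℝ) + 1) ^ 2) /
        (1 - ((x i + x j) / 2) ^ 2 / ((l : ℝ) + 1) ^ 2)))) atTop
      (𝓝 (∑ i, ∑ j, ξ i * ξ j *
        (sin (π * (u * ((x i + x j) / 2))) / sin (π * ((x i + x j) / 2))))) :=
    tendsto_finsetSum _ fun i _ => tendsto_finsetSum _ fun j _ => (hlim i j).const_mul _
  refine ge_of_tendsto' hl2 fun n => ?_
  exact quad_nonneg (psd_smul hu0 (psd_prod x hx hu0 hu1 n)) ξ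

/-- `K_u (x, z) = (sin u x + sin u z) / sin ((x + z) / 2)` on `(0, π)`. -/
lemma psd_Ku [DecidableEq ι] (φ : ι → ℝ) (hφ : ∀ i, 0 < φ i ∧ φ i < π) {u : ℝ} (hu0 : 0 ≤ u)
    (hu1 : u ≤ 1) :
    (Matrix.of fun i j => (sin (u * φ i) + sin (u * φ j)) / sin ((φ i + φ j) / 2)).PosSemidef := by
  have hpi := pi_pos
  have hx : ∀ i, 0 < φ i / π ∧ φ i / π < 1 := fun i =>
    ⟨div_pos (hφ i).1 hpi, by rw [div_lt_one hpi]; exact (hφ i).2⟩
  have h1 := psd_hankel (fun i => φ i / π) hx hu0 hu1
  have h2 := psd_add (psd_rank_one (ι := ι) (fun i => cos (u * φ i / 2)))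
    (psd_rank_one (ι := ι) (fun i => sin (u * φ i / 2)))
  have h3 := psd_smul (c := 2) (by norm_num) (psd_mul h1 h2)
  have e : (fun i j => (sin (u * φ i) + sin (u * φ j)) / sin ((φ i + φ j) / 2))
      = fun i j => 2 * (sin (π * (u * ((φ i / π + φ j / π) / 2))) / sin (π * ((φ i / π + φ j / π) / 2)) *
        (cos (u * φ i / 2) * cos (u * φ j / 2) + sin (u * φ i / 2) * sin (u * φ j / 2))) := by
    funext i j
    have e1 : π * (u * ((φ i / π + φ j / π) / 2)) = u * ((φ i + φ j) / 2) := by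
      field_simp
    have e2 : π * ((φ i / π + φ j / π) / 2) = (φ i + φ j) / 2 := by
      field_simp
    rw [e1, e2, ← cos_sub]
    have e3 : u * φ i / 2 - u * φ j / 2 = u * ((φ i - φ j) / 2) := by ring
    have e4 : sin (u * φ i) + sin (u * φ j) = 2 * (sin (u * ((φ i + φ j) / 2)) * cos (u * ((φ i - φ j) / 2))) := by
      have : u * φ i = u * ((φ i + φ j) / 2) + u * ((φ i - φ j) / 2) := by ring
      have h' : u * φ j = u * ((φ i + φ j) / 2) - u * ((φ i - φ j) / 2) := by ring
      rw [this, h', sin_add, sin_sub]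
      generalize u * ((φ i + φ j) / 2) = A
      generalize u * ((φ i - φ j) / 2) = B
      ring_nf
    rw [e3, e4]
    ring
  rw [e]
  exact h3

/-- the kernel with phase: `(sin (u x + κ) + sin (u z + κ)) / sin ((x + z) / 2)`,
`κ = (1 - u) c`, `c ∈ [0, π]`, `0 < u < 1`. -/
lemma psd_Ku_phase [DecidableEq ι] (φ : ι → ℝ) (hφ : ∀ i, 0 < φ i ∧ φ i < π) {u c : ℝ} (hu0 : 0 < u)
    (hu1 : u < 1) (hc0 : 0 ≤ c) (hc1 : c ≤ π) :
    (Matrix.of fun i j => (sin (u * φ i + (1 - u) * c) + sin (u * φ j + (1 - u) * c))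
      / sin ((φ i + φ j) / 2)).PosSemidef := by
  have hpi := pi_pos
  have hφ' : ∀ i, 0 < π - φ i ∧ π - φ i < π := fun i => ⟨by linarith [(hφ i).2], by linarith [(hφ i).1]⟩
  have h1 := psd_Ku φ hφ hu0.le hu1.le
  have h2 := psd_Ku (fun i => π - φ i) hφ' hu0.le hu1.le
  set κ₁ : ℝ := (1 - u) * π with hκ₁
  set κ : ℝ := (1 - u) * c with hκ
  have hv : 0 < 1 - u := by linarith
  have hκ₁0 : 0 < κ₁ := by positivity
  have hκ₁π : κ₁ < π := by rw [hκ₁]; nlinarith
  have hκ0 : 0 ≤ κ := by positivity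
  have hκle : κ ≤ κ₁ := by rw [hκ, hκ₁]; exact mul_le_mul_of_nonneg_left hc1 hv.le
  have hsκ₁ : 0 < sin κ₁ := sin_pos_of_pos_of_lt_pi hκ₁0 hκ₁π
  have hα : 0 ≤ sin (κ₁ - κ) / sin κ₁ :=
    div_nonneg (sin_nonneg_of_nonneg_of_le_pi (by linarith) (by linarith)) hsκ₁.le
  have hβ : 0 ≤ sin κ / sin κ₁ :=
    div_nonneg (sin_nonneg_of_nonneg_of_le_pi hκ0 (by linarith)) hsκ₁.le
  have h3 := psd_add (psd_smul hα h1) (psd_smul hβ h2)
  have two : ∀ A : ℝ, sin (A + κ) = sin (κ₁ - κ) / sin κ₁ * sin A + sin κ / sin κ₁ * sin (A + κ₁) := by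
    intro A
    rw [sin_add, sin_add, sin_sub]
    field_simp
    ring
  have e : (fun i j => (sin (u * φ i + (1 - u) * c) + sin (u * φ j + (1 - u) * c))
      / sin ((φ i + φ j) / 2))
      = fun i j => sin (κ₁ - κ) / sin κ₁ * ((sin (u * φ i) + sin (u * φ j)) / sin ((φ i + φ j) / 2))
        + sin κ / sin κ₁ * ((sin (u * (π - φ i)) + sin (u * (π - φ j))) / sin ((π - φ i + (π - φ j)) / 2)) := by
    funext i j
    have es : sin ((π - φ i + (π - φ j)) / 2) = sin ((φ i + φ j) / 2) := by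
      have : (π - φ i + (π - φ j)) / 2 = π - (φ i + φ j) / 2 := by ring
      rw [this, sin_pi_sub]
    have ep : ∀ t : ℝ, sin (u * (π - t)) = sin (u * t + κ₁) := by
      intro t
      have : u * t + κ₁ = π - u * (π - t) := by rw [hκ₁]; ring
      rw [this, sin_pi_sub]
    rw [es, ep, ep, ← hκ, two, two]
    field_simp
    ring
  rw [e]
  exact h3

end Vale.Agent.P371m
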